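import Vale.Agent.P180.R2.H589.Sx.Au4
import Vale.Agent.P180.R2.H589.Sp.Au6

/-!
P180: automorphisms of quotients of `Sp(V)` by central subgroups, any characteristic: semilinear
similitudes, the derived series of the outer automorphism group, automorphisms of coprime order.
-/

set_option linter.all false

namespace Vale.Agent.P180.R2.H589.Sx

open Subgroup Module
open LinearMap (BilinForm)
open Vale.Agent.P180.R2.H589.Sch
open Vale.Agent.P180.R2.H589.Sp

section Level

variable {K V : Type*} [Field K] [Finite K] [AddCommGroup V] [Module K V] [Module.Finite K V]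
  {B : BilinForm K V} (hB : Sy B)

include hB

/-- **Every automorphism of `Sp(V)`**, `dim V ≥ 6`, characteristic two, is induced by a semilinear
similitude. -/
theorem exists_ssim_two (h2 : (2 : K) = 0) (hK : 2 < Nat.card K) (hd : 4 < finrank K V) {T : Type*} [Group T]
    {π : SpG B →* T} (hπ : Function.Surjective π) (hker : π.ker = center (SpG B)) (α : MulAut T) :
    ∃ (g : V ≃+ V) (σ : K ≃+* K) (κ : K), SSim B g σ κ ∧ IndS π α g := by
  haveI : Finite V := Module.finite_of_finite K
  haveI hp : Fact (ringChar K).Prime := ⟨CharP.char_is_prime K (ringChar K)⟩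
  obtain ⟨o, ho⟩ : ∃ o : V, o ≠ 0 := by
    by_contra hcon
    push Not at hcon
    have h3 : Subsingleton V := ⟨fun x y => by rw [hcon x, hcon y]⟩
    have h4 := Module.finrank_zero_of_subsingleton (R := K) (M := V)
    omega
  obtain ⟨o', h1⟩ := hB.exists_one ho
  have he := splitE_iso hB h1
  have hBW := BW_sy hB h1
  obtain ⟨e, hee⟩ : ∃ e, e = splitE hB h1 := ⟨_, rfl⟩
  rw [← hee] at he
  have hW : ∃ x : WW B o o', x ≠ 0 := by
    by_contra hcon
    push Not at hcon
    have h3 : Subsingleton (WW B o o') := ⟨fun x y => by rw [hcon x, hcon y]⟩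
    have h4 := Module.finrank_zero_of_subsingleton (R := K) (M := WW B o o')
    have h5 := e.finrank_eq
    rw [Module.finrank_prod, Module.finrank_prod, Module.finrank_self] at h5
    omega
  have hdW : 2 < finrank K (WW B o o') := by
    have h5 := e.finrank_eq
    rw [Module.finrank_prod, Module.finrank_prod, Module.finrank_self] at h5
    omega
  have hπ' : Function.Surjective (π.comp (cjG he).toMonoidHom) := hπ.comp (cjG he).surjective
  have hker' : (π.comp (cjG he).toMonoidHom).ker = center (SpG (hyp (BW B o o'))) := by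
    ext x
    rw [MonoidHom.mem_ker]
    change π (cjG he x) = 1 ↔ _
    rw [← MonoidHom.mem_ker, hker, mem_center_iff, mem_center_iff]
    constructor
    · intro h y
      apply (cjG he).injective
      rw [map_mul, map_mul, h]
    · intro h y
      obtain ⟨y, rfl⟩ := (cjG he).surjective y
      rw [← map_mul, ← map_mul, h]
  obtain ⟨g, σ, κ, hg, hind⟩ := exists_ssim_hyp hBW (ringChar K) h2 hK hW hker' hπ' hdW α
  refine ⟨(e.symm.toAddEquiv.trans g).trans e.toAddEquiv, σ, κ, ⟨fun c v => ?_, hg.ne,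
    fun u v => ?_⟩, fun x y hxy => ?_⟩
  · change e (g (e.symm (c • v))) = σ c • e (g (e.symm v))
    rw [map_smul, hg.sl, map_smul]
  · change B (e (g (e.symm u))) (e (g (e.symm v))) = _
    rw [he, hg.form, ← he, e.apply_symm_apply, e.apply_symm_apply]
  · obtain ⟨x, rfl⟩ := (cjG he).surjective x
    obtain ⟨y, rfl⟩ := (cjG he).surjective y
    refine hind x y fun v => ?_
    have h3 := hxy (e v)
    change e (g (e.symm ((cjG he x : V ≃ₗ[K] V) (e v)))) =
      (cjG he y : V ≃ₗ[K] V) (e (g (e.symm (e v)))) at h3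
    rw [cjG_apply, cjG_apply, e.symm_apply_apply, e.symm_apply_apply] at h3
    exact e.injective h3

/-- **Every automorphism of `PSp(V)`**, `dim V ≥ 4`, `dim V ≥ 6` in characteristic two, is induced
by a semilinear similitude. -/
theorem exists_ssim (hK : 2 < Nat.card K) (hd : 2 < finrank K V)
    (hc : (2 : K) ≠ 0 ∨ 4 < finrank K V) {T : Type*} [Group T]
    {π : SpG B →* T} (hπ : Function.Surjective π) (hker : π.ker = center (SpG B)) (α : MulAut T) :
    ∃ (g : V ≃+ V) (σ : K ≃+* K) (κ : K), SSim B g σ κ ∧ IndS π α g := by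
  by_cases h2 : (2 : K) = 0
  · exact exists_ssim_two hB h2 hK (hc.resolve_left fun h => h h2) hπ hker α
  · exact Sp.exists_ssim hB h2 hd hπ hker α

end Level

section LevelL

variable {K : Type} [Field K] [Finite K] {V : Type} [AddCommGroup V] [Module K V]
  [Module.Finite K V] {B : BilinForm K V} (hB : Sy B)

include hB

/-- **Automorphisms of quotients `L` of `Sp(V)` by central subgroups.** -/
theorem exists_ssim_L (hK : 3 < Nat.card K) (hd : 2 < finrank K V)
    (hc : (2 : K) ≠ 0 ∨ 4 < finrank K V) {L : Type*}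
    [Group L] {π : SpG B →* L} (hπ : Function.Surjective π) (hk : π.ker ≤ center (SpG B))
    (α : MulAut L) :
    ∃ (g : V ≃+ V) (σ : K ≃+* K) (κ : K), SSim B g σ κ ∧ IndS π α g := by
  have hperf := SpG_perfect' hK hB
  let πT : SpG B →* L ⧸ center L := (QuotientGroup.mk' (center L)).comp π
  have hπT : Function.Surjective πT := (QuotientGroup.mk'_surjective _).comp hπ
  have hkT : πT.ker = center (SpG B) := ker_center hperf hπ hk
  have hcen : (center L).map α.toMonoidHom = center L := by
    ext t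
    constructor
    · rintro ⟨z, hz, rfl⟩
      rw [mem_center_iff]
      intro y
      obtain ⟨y, rfl⟩ := α.surjective y
      change α y * α z = α z * α y
      rw [← map_mul, ← map_mul, mem_center_iff.mp hz y]
    · intro ht
      refine ⟨α.symm t, ?_, α.apply_symm_apply t⟩
      change α.symm t ∈ center L
      rw [mem_center_iff]
      intro y
      apply α.injective
      rw [map_mul, map_mul, α.apply_symm_apply, mem_center_iff.mp ht]
  let αT : MulAut (L ⧸ center L) := QuotientGroup.congr (center L) (center L) α hcen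
  obtain ⟨g, σ, κ, hg, hind⟩ := exists_ssim hB (by omega) hd hc hπT hkT αT
  refine ⟨g, σ, κ, hg, ?_⟩
  choose Y hY using fun x : SpG B => hg.exists_conj x
  have huniq : ∀ x y : SpG B, (∀ v, g ((x : V ≃ₗ[K] V) v) = (y : V ≃ₗ[K] V) (g v)) →
      Y x = y := by
    intro x y hxy
    apply Subtype.ext
    apply LinearEquiv.ext
    intro w
    obtain ⟨v, rfl⟩ := g.surjective w
    rw [← hY, hxy]
  let f₁ : SpG B →* L := α.toMonoidHom.comp π
  let f₂ : SpG B →* L := π.comp
    { toFun := Y
      map_one' := huniq _ _ fun v => rfl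
      map_mul' := fun x z => huniq _ _ fun v => by
        change g ((x : V ≃ₗ[K] V) ((z : V ≃ₗ[K] V) v)) = (Y x : V ≃ₗ[K] V) ((Y z : V ≃ₗ[K] V) (g v))
        rw [hY, hY] }
  have heq : f₁ = f₂ := by
    apply Bt.eq_of_central hperf
    intro x
    have h3 : αT (πT x) = πT (Y x) := hind x (Y x) (hY x)
    exact QuotientGroup.eq.mp h3
  intro x y hxy
  rw [← huniq x y hxy]
  exact congrArg (fun f : SpG B →* L => f x) heq

end LevelL

section Pairs

variable {K : Type} [Field K] [Finite K] {V : Type} [AddCommGroup V] [Module K V]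
  [Module.Finite K V] {B : BilinForm K V} (hB : Sy B)

include hB

/-- **Semilinear similitudes, for isometry groups in `SL(V)`.** -/
theorem ssim_of_aut (hK : 3 < Nat.card K) (hd : 2 < finrank K V)
    (hc : (2 : K) ≠ 0 ∨ 4 < finrank K V)
    {X : Subgroup (SpecialLinearGroup K V)}
    (hX : ∀ g : SpecialLinearGroup K V, g ∈ X ↔ ∀ x y, B (g x) (g y) = B x y)
    {L : Type*} [Group L] {π : X →* L} (hπ : Function.Surjective π) (hk : π.ker ≤ center X)
    (α : MulAut L) :
    ∃ (σ : K ≃+* K) (κ : K) (g : V ≃+ V), κ ≠ 0 ∧ (∀ (c : K) v, g (c • v) = σ c • g v) ∧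
      (∀ u v, B (g u) (g v) = κ * σ (B u v)) ∧
      ∀ x y : X, (∀ v, g ((x : SpecialLinearGroup K V) v) = (y : SpecialLinearGroup K V) (g v)) →
        α (π x) = π y := by
  obtain ⟨e, π', h1, h3, h4, h5⟩ := exists_model hB (by omega) hX hπ hk
  obtain ⟨g, σ, κ, hg, hind⟩ := exists_ssim_L hB hK hd hc h1 h3 α
  refine ⟨σ, κ, g, hg.ne, hg.sl, hg.form, fun x y hxy => ?_⟩
  obtain ⟨x, rfl⟩ := e.surjective x
  obtain ⟨y, rfl⟩ := e.surjective y
  rw [← h4, ← h4]
  refine hind x y fun v => ?_
  have h6 := hxy v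
  rwa [h5, h5] at h6

/-- **Conjugation in an overgroup.** -/
theorem ssim_conj (hK : 3 < Nat.card K) (hd : 2 < finrank K V)
    (hc : (2 : K) ≠ 0 ∨ 4 < finrank K V)
    {X : Subgroup (SpecialLinearGroup K V)}
    (hX : ∀ g : SpecialLinearGroup K V, g ∈ X ↔ ∀ x y, B (g x) (g y) = B x y)
    {G : Type*} [Group G] {L : Subgroup G} {π : X →* L} (hπ : Function.Surjective π)
    (hk : π.ker ≤ center X) {r : G} (hr : r ∈ normalizer (L : Set G)) :
    ∃ (σ : K ≃+* K) (κ : K) (g : V ≃+ V), κ ≠ 0 ∧ (∀ (c : K) v, g (c • v) = σ c • g v) ∧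
      (∀ u v, B (g u) (g v) = κ * σ (B u v)) ∧
      ∀ x y : X, (∀ v, g ((x : SpecialLinearGroup K V) v) = (y : SpecialLinearGroup K V) (g v)) →
        r * (π x : G) * r⁻¹ = π y := by
  obtain ⟨σ, κ, g, h1, h3, h4, h5⟩ := ssim_of_aut hB hK hd hc hX hπ hk
    (normalizerMonoidHom L ⟨r, hr⟩)
  refine ⟨σ, κ, g, h1, h3, h4, fun x y hxy => ?_⟩
  rw [← h5 x y hxy]
  rfl

/-- **`Out` of the quotients of `Sp(V)` by central subgroups is solvable.** -/
theorem derived_le_conj (hK : 3 < Nat.card K) (hd : 2 < finrank K V)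
    (hc : (2 : K) ≠ 0 ∨ 4 < finrank K V)
    {X : Subgroup (SpecialLinearGroup K V)}
    (hX : ∀ g : SpecialLinearGroup K V, g ∈ X ↔ ∀ x y, B (g x) (g y) = B x y)
    {L : Type*} [Group L] {π : X →* L} (hπ : Function.Surjective π) (hk : π.ker ≤ center X) :
    derivedSeries (MulAut L) 2 ≤ (MulAut.conj : L →* MulAut L).range := by
  obtain ⟨e, π', h1, h3, h4, h5⟩ := exists_model hB (by omega) hX hπ hk
  exact derived_le h1 (fun α => exists_ssim_L hB hK hd hc h1 h3 α)

/-- **Automorphisms of odd order prime to `|Aut K|` are inner.** -/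
theorem inner_of_coprime_X (hK : 3 < Nat.card K) (hd : 2 < finrank K V)
    (hc : (2 : K) ≠ 0 ∨ 4 < finrank K V)
    {X : Subgroup (SpecialLinearGroup K V)}
    (hX : ∀ g : SpecialLinearGroup K V, g ∈ X ↔ ∀ x y, B (g x) (g y) = B x y)
    {L : Type*} [Group L] {π : X →* L} (hπ : Function.Surjective π) (hk : π.ker ≤ center X)
    {α : MulAut L} {m : ℕ} (hm : Odd m) (hcp : m.Coprime (Nat.card (K ≃+* K))) (h : α ^ m = 1) :
    α ∈ (MulAut.conj : L →* MulAut L).range := by
  haveI : Finite V := Module.finite_of_finite K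
  obtain ⟨e, π', h1, h3, h4, h5⟩ := exists_model hB (by omega) hX hπ hk
  have hV : ∃ v : V, v ≠ 0 := by
    by_contra hcon
    push Not at hcon
    have h3 : Subsingleton V := ⟨fun x y => by rw [hcon x, hcon y]⟩
    have h4 := Module.finrank_zero_of_subsingleton (R := K) (M := V)
    omega
  exact inner_of_coprime hB hV h1 h3 (fun α => exists_ssim_L hB hK hd hc h1 h3 α) hm hcp h

/-- **The same for the simple group**, `|K| > 2`. -/
theorem derived_le_conj_T (hK : 2 < Nat.card K) (hd : 2 < finrank K V)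
    (hc : (2 : K) ≠ 0 ∨ 4 < finrank K V)
    {X : Subgroup (SpecialLinearGroup K V)}
    (hX : ∀ g : SpecialLinearGroup K V, g ∈ X ↔ ∀ x y, B (g x) (g y) = B x y)
    {T : Type*} [Group T] {π : X →* T} (hπ : Function.Surjective π) (hk : π.ker = center X) :
    derivedSeries (MulAut T) 2 ≤ (MulAut.conj : T →* MulAut T).range := by
  obtain ⟨e, π', h1, h3, h4, h5⟩ := exists_model hB hK hX hπ hk.le
  have h6 : π'.ker = center (SpG B) := by
    refine le_antisymm h3 fun x hx => ?_
    rw [MonoidHom.mem_ker, h4, ← MonoidHom.mem_ker, hk]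
    rw [mem_center_iff] at hx ⊢
    intro y
    obtain ⟨y, rfl⟩ := e.surjective y
    rw [← map_mul, ← map_mul, hx]
  exact derived_le h1 (fun α => exists_ssim hB hK hd hc h1 h6 α)

/-- **Automorphisms of odd order prime to `|Aut K|` of the simple group are inner.** -/
theorem inner_of_coprime_T (hK : 2 < Nat.card K) (hd : 2 < finrank K V)
    (hc : (2 : K) ≠ 0 ∨ 4 < finrank K V)
    {X : Subgroup (SpecialLinearGroup K V)}
    (hX : ∀ g : SpecialLinearGroup K V, g ∈ X ↔ ∀ x y, B (g x) (g y) = B x y)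
    {T : Type*} [Group T] {π : X →* T} (hπ : Function.Surjective π) (hk : π.ker = center X)
    {α : MulAut T} {m : ℕ} (hm : Odd m) (hcp : m.Coprime (Nat.card (K ≃+* K))) (h : α ^ m = 1) :
    α ∈ (MulAut.conj : T →* MulAut T).range := by
  haveI : Finite V := Module.finite_of_finite K
  obtain ⟨e, π', h1, h3, h4, h5⟩ := exists_model hB hK hX hπ hk.le
  have h6 : π'.ker = center (SpG B) := by
    refine le_antisymm h3 fun x hx => ?_
    rw [MonoidHom.mem_ker, h4, ← MonoidHom.mem_ker, hk]
    rw [mem_center_iff] at hx ⊢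
    intro y
    obtain ⟨y, rfl⟩ := e.surjective y
    rw [← map_mul, ← map_mul, hx]
  have hV : ∃ v : V, v ≠ 0 := by
    by_contra hcon
    push Not at hcon
    have h3 : Subsingleton V := ⟨fun x y => by rw [hcon x, hcon y]⟩
    have h4 := Module.finrank_zero_of_subsingleton (R := K) (M := V)
    omega
  exact inner_of_coprime hB hV h1 h3 (fun α => exists_ssim hB hK hd hc h1 h6 α) hm hcp h

end Pairs

end Vale.Agent.P180.R2.H589.Sx
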