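import Vale.Agent.P180.R2.H589.Sx.Au7
import Vale.Agent.P180.R2.H589.Sx.Au6

/-!
P180: automorphisms of quotients of `Sp(V)` by central subgroups, `dim V ≥ 4`, any characteristic:
automorphisms of odd order are induced by semilinear similitudes, and the second derived subgroup
of the automorphism group consists of inner automorphisms.
-/

set_option linter.all false

namespace Vale.Agent.P180.R2.H589.Sx

open Subgroup Module
open LinearMap (BilinForm)
open Vale.Agent.P180.R2.H589.Sch
open Vale.Agent.P180.R2.H589.Sp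

section Transport

variable {K V V' : Type*} [Field K] [AddCommGroup V] [Module K V] [AddCommGroup V'] [Module K V']
  {B : BilinForm K V} {B' : BilinForm K V'} {e : V ≃ₗ[K] V'}
  (he : ∀ x y, B' (e x) (e y) = B x y) (hB : Sy B) (hB' : Sy B') {T : Type*} [Group T]
  {π : SpG B' →* T}

theorem cjG_tG (u : V) (c : K) : cjG he (tG hB u c) = tG hB' (e u) c := by
  apply Subtype.ext
  apply LinearEquiv.ext
  intro w
  obtain ⟨v, rfl⟩ := e.surjective w
  rw [cjG_apply]
  change e (tS hB u c v) = tS hB' (e u) c (e v)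
  rw [tS_apply, tS_apply, map_add, map_smul, he]

theorem XT_cjG (u : V) : XT (π.comp (cjG he).toMonoidHom) hB u = XT π hB' (e u) := by
  ext t
  constructor
  · rintro ⟨c, rfl⟩
    refine ⟨c, ?_⟩
    rw [← cjG_tG he hB hB']
    rfl
  · rintro ⟨c, rfl⟩
    refine ⟨c, ?_⟩
    rw [← cjG_tG he hB hB']
    rfl

theorem TP_cjG {α : MulAut T} : TP (π.comp (cjG he).toMonoidHom) hB α ↔ TP π hB' α := by
  constructor
  · rintro ⟨v, w, hv, hw, h⟩
    refine ⟨e v, e w, e.map_ne_zero_iff.mpr hv, e.map_ne_zero_iff.mpr hw, fun x => ?_⟩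
    rw [← XT_cjG he hB hB', ← XT_cjG he hB hB']
    exact h x
  · rintro ⟨v, w, hv, hw, h⟩
    obtain ⟨v, rfl⟩ := e.surjective v
    obtain ⟨w, rfl⟩ := e.surjective w
    refine ⟨v, w, e.map_ne_zero_iff.mp hv, e.map_ne_zero_iff.mp hw, fun x => ?_⟩
    rw [XT_cjG he hB hB', XT_cjG he hB hB']
    exact h x

omit hB hB' in
theorem ker_cjG (hker : π.ker = center (SpG B')) :
    (π.comp (cjG he).toMonoidHom).ker = center (SpG B) := by
  ext x
  rw [MonoidHom.mem_ker]
  change π (cjG he x) = 1 ↔ _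
  rw [← MonoidHom.mem_ker, hker, mem_center_iff, mem_center_iff]
  constructor
  · intro h y
    apply (cjG he).injective
    rw [map_mul, map_mul, h]
  · intro h y
    obtain ⟨y, rfl⟩ := (cjG he).surjective y
    rw [← map_mul, ← map_mul, h]

end Transport

section Level

variable {K V : Type*} [Field K] [Finite K] [AddCommGroup V] [Module K V] [Module.Finite K V]
  {B : BilinForm K V} (hB : Sy B)

include hB

omit [Finite K] in
theorem finrank_split {o o' : V} (h1 : B o o' = 1) :
    finrank K V = finrank K (WW B o o') + 2 := by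
  have h5 := (splitE hB h1).finrank_eq
  rw [Module.finrank_prod, Module.finrank_prod, Module.finrank_self] at h5
  omega

omit [Finite K] in
theorem exists_ne_of (hd : 0 < finrank K V) : ∃ v : V, v ≠ 0 := by
  by_contra hcon
  push Not at hcon
  have h3 : Subsingleton V := ⟨fun x y => by rw [hcon x, hcon y]⟩
  have h4 := Module.finrank_zero_of_subsingleton (R := K) (M := V)
  omega

omit [Finite K] in
theorem two_le (hd : 0 < finrank K V) : 2 ≤ finrank K V := by
  obtain ⟨o, ho⟩ := exists_ne_of hB hd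
  obtain ⟨o', h1⟩ := hB.exists_one ho
  have := finrank_split hB h1
  omega

omit [Finite K] in
theorem four_of (hd : 2 < finrank K V) (hn : ¬ 4 < finrank K V) : finrank K V = 4 := by
  obtain ⟨o, ho⟩ := exists_ne_of hB (by omega)
  obtain ⟨o', h1⟩ := hB.exists_one ho
  have h3 := finrank_split hB h1
  have h4 := two_le (BW_sy hB h1) (by omega)
  omega

/-- **Automorphisms which permute the transvection groups** are induced by semilinear
similitudes, characteristic two. -/
theorem exists_ssim_TP (h2 : (2 : K) = 0) (hK : 2 < Nat.card K) (hd : 2 < finrank K V)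
    {T : Type*} [Group T] {π : SpG B →* T} (hπ : Function.Surjective π)
    (hker : π.ker = center (SpG B)) {α : MulAut T} (hα : TP π hB α) :
    ∃ (g : V ≃+ V) (σ : K ≃+* K) (κ : K), SSim B g σ κ ∧ IndS π α g := by
  haveI : Finite V := Module.finite_of_finite K
  haveI hp : Fact (ringChar K).Prime := ⟨CharP.char_is_prime K (ringChar K)⟩
  obtain ⟨o, ho⟩ := exists_ne_of hB (by omega)
  obtain ⟨o', h1⟩ := hB.exists_one ho
  have he := splitE_iso hB h1
  have hBW := BW_sy hB h1
  obtain ⟨e, hee⟩ : ∃ e, e = splitE hB h1 := ⟨_, rfl⟩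
  rw [← hee] at he
  have hdW := finrank_split hB h1
  have hW := exists_ne_of hBW (by omega)
  have hπ' : Function.Surjective (π.comp (cjG he).toMonoidHom) := hπ.comp (cjG he).surjective
  have hker' := ker_cjG he hker
  have hα' := TP.exists_norm hBW hK hπ' ((TP_cjG he (hyp_sy hBW) hB).mpr hα)
  obtain ⟨g, σ, κ, hg, hind⟩ := exists_ssim_of hBW (ringChar K) h2 hK hW hker' hπ' hα'
  refine ⟨(e.symm.toAddEquiv.trans g).trans e.toAddEquiv, σ, κ, ⟨fun c v => ?_, hg.ne,
    fun u v => ?_⟩, fun x y hxy => ?_⟩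
  · change e (g (e.symm (c • v))) = σ c • e (g (e.symm v))
    rw [map_smul, hg.sl, map_smul]
  · change B (e (g (e.symm u))) (e (g (e.symm v))) = _
    rw [he, hg.form, ← he, e.apply_symm_apply, e.apply_symm_apply]
  · obtain ⟨x, rfl⟩ := (cjG he).surjective x
    obtain ⟨y, rfl⟩ := (cjG he).surjective y
    refine hind x y fun v => ?_
    have h3 := hxy (e v)
    change e (g (e.symm ((cjG he x : V ≃ₗ[K] V) (e v)))) =
      (cjG he y : V ≃ₗ[K] V) (e (g (e.symm (e v)))) at h3
    rw [cjG_apply, cjG_apply, e.symm_apply_apply, e.symm_apply_apply] at h3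
    exact e.injective h3

/-- **Index two**, dimension four. -/
theorem index_two (h2 : (2 : K) = 0) (hK : 2 < Nat.card K) (hd : finrank K V = 4)
    {T : Type*} [Group T] {π : SpG B →* T} (hπ : Function.Surjective π)
    (hker : π.ker = center (SpG B)) {α β : MulAut T} (hα : ¬ TP π hB α) (hβ : ¬ TP π hB β) :
    TP π hB (α⁻¹ * β) := by
  haveI : Finite V := Module.finite_of_finite K
  haveI hp : Fact (ringChar K).Prime := ⟨CharP.char_is_prime K (ringChar K)⟩
  obtain ⟨o, ho⟩ := exists_ne_of hB (by omega)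
  obtain ⟨o', h1⟩ := hB.exists_one ho
  have he := splitE_iso hB h1
  have hBW := BW_sy hB h1
  obtain ⟨e, hee⟩ : ∃ e, e = splitE hB h1 := ⟨_, rfl⟩
  rw [← hee] at he
  have hdW := finrank_split hB h1
  have hπ' : Function.Surjective (π.comp (cjG he).toMonoidHom) := hπ.comp (cjG he).surjective
  have hker' := ker_cjG he hker
  rw [← TP_cjG he (hyp_sy hBW) hB] at hα hβ ⊢
  exact index_two_hyp hBW (ringChar K) h2 hK hker' hπ' (by omega) hα hβ

/-- Automorphisms of odd order permute the transvection groups. -/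
theorem TP_of_odd (h2 : (2 : K) = 0) (hK : 2 < Nat.card K) (hd : finrank K V = 4)
    {T : Type*} [Group T] {π : SpG B →* T} (hπ : Function.Surjective π)
    (hker : π.ker = center (SpG B)) {α : MulAut T} {m : ℕ} (hm : Odd m) (h : α ^ m = 1) :
    TP π hB α := by
  have hV := exists_ne_of hB (by omega)
  by_contra hα
  have h1 : ¬ TP π hB α⁻¹ := fun h3 => hα (by
    have h4 := h3.inv
    rwa [inv_inv] at h4)
  have h3 := index_two hB h2 hK hd hπ hker h1 hα
  rw [inv_inv] at h3
  obtain ⟨j, hj⟩ := hm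
  have h4 : α * α ∈ TPG π hB hK hπ hV := h3
  have h5 := Subgroup.pow_mem _ h4 (j + 1)
  have h6 : (α * α) ^ (j + 1) = α := by
    rw [← pow_two, ← pow_mul]
    have h9 : 2 * (j + 1) = m + 1 := by omega
    rw [h9, pow_succ, h, one_mul]
  rw [h6] at h5
  exact hα h5

end Level

section Calc

variable {K V : Type*} [Field K] [Finite K] [AddCommGroup V] [Module K V] [Finite V]
  {B : BilinForm K V} (hB : Sy B) {L : Type*} [Group L] {π : SpG B →* L}

include hB

/-- **Automorphisms of odd order prime to `|Aut K|` are inner.** -/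
theorem inner_of_coprime_one (hV : ∃ v : V, v ≠ 0) (hπ : Function.Surjective π)
    (hk : π.ker ≤ center (SpG B)) {α : MulAut L}
    (H : ∃ (g : V ≃+ V) (σ : K ≃+* K) (κ : K), SSim B g σ κ ∧ IndS π α g)
    {m : ℕ} (hm : Odd m) (hc : m.Coprime (Nat.card (K ≃+* K))) (h : α ^ m = 1) :
    α ∈ (MulAut.conj : L →* MulAut L).range := by
  obtain ⟨g, σ, κ, hg, h1⟩ := H
  have hpow : ∀ n : ℕ, ∃ (g' : V ≃+ V) (κ' : K), SSim B g' ((σ : RingAut K) ^ n) κ' ∧
      IndS π (α ^ n) g' := by
    intro n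
    induction n with
    | zero =>
      refine ⟨AddEquiv.refl V, 1, ⟨fun c v => rfl, one_ne_zero, fun u v => (one_mul _).symm⟩, ?_⟩
      intro x y hxy
      have h1 : x = y := Subtype.ext (LinearEquiv.ext hxy)
      rw [h1, pow_zero]
      rfl
    | succ n ih =>
      obtain ⟨g', κ', h2, h3⟩ := ih
      refine ⟨g.trans g', κ' * ((σ : RingAut K) ^ n) κ, ?_, ?_⟩
      · have h4 := h2.mul hg
        rw [pow_succ]
        exact h4
      · rw [pow_succ]
        exact h3.mul hg h1
  obtain ⟨g', κ', h2, h3⟩ := hpow m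
  rw [h] at h3
  have h4 : ((σ : RingAut K) ^ m) = 1 := refl_of_ind hB hV hk h2 h3
  haveI : Finite (RingAut K) := Finite.of_injective (fun e : K ≃+* K => (e : K → K))
    (fun e e' h => RingEquiv.ext (congrFun h))
  have h5 : (σ : RingAut K) = 1 := by
    have h6 := orderOf_dvd_of_pow_eq_one h4
    have h7 : orderOf (σ : RingAut K) ∣ Nat.card (RingAut K) := orderOf_dvd_natCard _
    have h8 := Nat.eq_one_of_dvd_coprimes hc h6 h7
    exact orderOf_eq_one_iff.mp h8
  have h6 : σ = RingEquiv.refl K := h5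
  subst h6
  obtain ⟨j, hj⟩ := hm
  have h7 : (α ^ 2) ∈ (MulAut.conj : L →* MulAut L).range := by
    have h8 := hg.mul hg
    have h9 := h1.mul hg h1
    refine IndS.inner (g := g.trans g) hπ hg.ne ?_ (by rw [pow_two]; exact h9)
    rw [pow_two]
    exact h8
  have h8 : α = (α ^ 2) ^ (j + 1) := by
    rw [← pow_mul]
    have h9 : 2 * (j + 1) = m + 1 := by omega
    rw [h9, pow_succ, h, one_mul]
  rw [h8]
  exact Subgroup.pow_mem _ h7 _

omit hB [Finite V] [Finite K] [Field K] [AddCommGroup V] in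
omit [Group L] in
open scoped commutatorElement in
theorem comm_mem_of_index {G : Type*} [Group G] {H : Subgroup G}
    (h : ∀ a b, a ∉ H → b ∉ H → a⁻¹ * b ∈ H) (a b : G) : ⁅a, b⁆ ∈ H := by
  have hn : ∀ a b, a ∈ H → b * a * b⁻¹ ∈ H := by
    intro a b ha
    by_cases hb : b ∈ H
    · exact H.mul_mem (H.mul_mem hb ha) (H.inv_mem hb)
    have h1 : b⁻¹ ∉ H := fun h1 => hb (by
      have h3 := H.inv_mem h1
      rwa [inv_inv] at h3)
    have h3 : a * b⁻¹ ∉ H := fun h3 => h1 (by
      have h4 := H.mul_mem (H.inv_mem ha) h3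
      rwa [inv_mul_cancel_left] at h4)
    have h4 := h _ _ h1 h3
    rwa [inv_inv, ← mul_assoc] at h4
  have hm : ∀ a b, a ∉ H → b ∉ H → a * b ∈ H := by
    intro a b ha hb
    have h4 := h a⁻¹ b (fun h1 => ha (by
      have h3 := H.inv_mem h1
      rwa [inv_inv] at h3)) hb
    rwa [inv_inv] at h4
  rw [commutatorElement_def]
  by_cases ha : a ∈ H
  · have h1 := H.mul_mem ha (hn _ b (H.inv_mem ha))
    have h3 : a * (b * a⁻¹ * b⁻¹) = a * b * a⁻¹ * b⁻¹ := by group
    rwa [h3] at h1
  by_cases hb : b ∈ H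
  · exact H.mul_mem (hn _ a hb) (H.inv_mem hb)
  have h1 := H.mul_mem (hm _ _ ha hb) (H.inv_mem (hm _ _ hb ha))
  have h3 : a * b * (b * a)⁻¹ = a * b * a⁻¹ * b⁻¹ := by group
  rwa [h3] at h1

end Calc

section Derived

variable {K V : Type*} [Field K] [Finite K] [AddCommGroup V] [Module K V] [Module.Finite K V]
  {B : BilinForm K V} (hB : Sy B)

include hB

open scoped commutatorElement in
/-- **The outer automorphism group of `Sp_4(2^f)`.** -/
theorem derived_le_four (h2 : (2 : K) = 0) (hK : 2 < Nat.card K) (hd : finrank K V = 4)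
    {T : Type*} [Group T] {π : SpG B →* T} (hπ : Function.Surjective π)
    (hker : π.ker = center (SpG B)) :
    derivedSeries (MulAut T) 2 ≤ (MulAut.conj : T →* MulAut T).range := by
  have hV := exists_ne_of hB (by omega)
  have d1 : derivedSeries (MulAut T) 1 ≤ TPG π hB hK hπ hV := by
    rw [derivedSeries_succ, derivedSeries_zero, commutator_le]
    intro α _ β _
    exact comm_mem_of_index (fun a b ha hb => index_two hB h2 hK hd hπ hker ha hb) α β
  rw [derivedSeries_succ, commutator_le]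
  intro α hα β hβ
  obtain ⟨g, σ, κ, hg, h1⟩ := exists_ssim_TP hB h2 hK (by omega) hπ hker (d1 hα)
  obtain ⟨h, τ, μ, hh, h3⟩ := exists_ssim_TP hB h2 hK (by omega) hπ hker (d1 hβ)
  have h4 := (hg.mul (hh.mul (hg.inv.mul hh.inv)))
  have h5 := h1.mul (hh.mul (hg.inv.mul hh.inv)) (h3.mul (hg.inv.mul hh.inv)
    (h1.inv.mul hh.inv h3.inv))
  have h6 : (((τ.symm.trans σ.symm).trans τ).trans σ) = RingEquiv.refl K := by
    ext c
    change σ (τ (σ.symm (τ.symm c))) = c
    rw [ringEquiv_comm τ σ.symm, σ.apply_symm_apply, τ.apply_symm_apply]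
  rw [h6] at h4
  have h7 : ⁅α, β⁆ = α * (β * (α⁻¹ * β⁻¹)) := by
    rw [commutatorElement_def]
    group
  rw [h7]
  obtain ⟨c, hc⟩ := exists_root h2 (κ * σ (μ * τ (σ.symm κ⁻¹ * σ.symm (τ.symm μ⁻¹))))
  have hc0 : c ≠ 0 := by
    rintro rfl
    rw [zero_pow two_ne_zero] at hc
    exact h4.ne hc.symm
  refine IndS.inner hπ hc0 ?_ h5
  rw [hc]
  exact h4

end Derived

section Pairs

variable {K : Type} [Field K] [Finite K] {V : Type} [AddCommGroup V] [Module K V]
  [Module.Finite K V] {B : BilinForm K V} (hB : Sy B)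

include hB

omit [Finite K] [Module.Finite K V] in
theorem ker_eq (h2 : (2 : K) = 0) {L : Type*} [Group L] {π : SpG B →* L}
    (hk : π.ker ≤ center (SpG B)) : π.ker = center (SpG B) := by
  refine le_antisymm hk fun z hz => ?_
  rw [center_triv h2 hB hz]
  exact Subgroup.one_mem _

/-- **Semilinear similitudes**, automorphisms of odd order. -/
theorem exists_ssim_odd (hK : 3 < Nat.card K) (hd : 2 < finrank K V) {L : Type*}
    [Group L] {π : SpG B →* L} (hπ : Function.Surjective π) (hk : π.ker ≤ center (SpG B))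
    {α : MulAut L} {m : ℕ} (hm : Odd m) (h : α ^ m = 1) :
    ∃ (g : V ≃+ V) (σ : K ≃+* K) (κ : K), SSim B g σ κ ∧ IndS π α g := by
  by_cases hc : (2 : K) ≠ 0 ∨ 4 < finrank K V
  · exact exists_ssim_L hB hK hd hc hπ hk α
  push Not at hc
  have hd4 := four_of hB hd (by omega)
  have hker := ker_eq hB hc.1 hk
  exact exists_ssim_TP hB hc.1 (by omega) hd hπ hker
    (TP_of_odd hB hc.1 (by omega) hd4 hπ hker hm h)

/-- **Semilinear similitudes, for isometry groups in `SL(V)`**, automorphisms of odd order. -/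
theorem ssim_of_odd (hK : 3 < Nat.card K) (hd : 2 < finrank K V)
    {X : Subgroup (SpecialLinearGroup K V)}
    (hX : ∀ g : SpecialLinearGroup K V, g ∈ X ↔ ∀ x y, B (g x) (g y) = B x y)
    {L : Type*} [Group L] {π : X →* L} (hπ : Function.Surjective π) (hk : π.ker ≤ center X)
    {α : MulAut L} {m : ℕ} (hm : Odd m) (h : α ^ m = 1) :
    ∃ (σ : K ≃+* K) (κ : K) (g : V ≃+ V), κ ≠ 0 ∧ (∀ (c : K) v, g (c • v) = σ c • g v) ∧
      (∀ u v, B (g u) (g v) = κ * σ (B u v)) ∧
      ∀ x y : X, (∀ v, g ((x : SpecialLinearGroup K V) v) = (y : SpecialLinearGroup K V) (g v)) →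
        α (π x) = π y := by
  obtain ⟨e, π', h1, h3, h4, h5⟩ := exists_model hB (by omega) hX hπ hk
  obtain ⟨g, σ, κ, hg, hind⟩ := exists_ssim_odd hB hK hd h1 h3 hm h
  refine ⟨σ, κ, g, hg.ne, hg.sl, hg.form, fun x y hxy => ?_⟩
  obtain ⟨x, rfl⟩ := e.surjective x
  obtain ⟨y, rfl⟩ := e.surjective y
  rw [← h4, ← h4]
  refine hind x y fun v => ?_
  have h6 := hxy v
  rwa [h5, h5] at h6

/-- **Conjugation in an overgroup**, elements with an odd power in the centraliser. -/
theorem ssim_conj_odd (hK : 3 < Nat.card K) (hd : 2 < finrank K V)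
    {X : Subgroup (SpecialLinearGroup K V)}
    (hX : ∀ g : SpecialLinearGroup K V, g ∈ X ↔ ∀ x y, B (g x) (g y) = B x y)
    {G : Type*} [Group G] {L : Subgroup G} {π : X →* L} (hπ : Function.Surjective π)
    (hk : π.ker ≤ center X) {r : G} (hr : r ∈ normalizer (L : Set G)) {m : ℕ} (hm : Odd m)
    (h : r ^ m ∈ centralizer (L : Set G)) :
    ∃ (σ : K ≃+* K) (κ : K) (g : V ≃+ V), κ ≠ 0 ∧ (∀ (c : K) v, g (c • v) = σ c • g v) ∧
      (∀ u v, B (g u) (g v) = κ * σ (B u v)) ∧
      ∀ x y : X, (∀ v, g ((x : SpecialLinearGroup K V) v) = (y : SpecialLinearGroup K V) (g v)) →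
        r * (π x : G) * r⁻¹ = π y := by
  have hpow : (normalizerMonoidHom L ⟨r, hr⟩) ^ m = 1 := by
    rw [← map_pow]
    apply MulEquiv.ext
    intro x
    apply Subtype.ext
    change r ^ m * (x : G) * (r ^ m)⁻¹ = x
    rw [← mem_centralizer_iff.mp h x x.2, mul_inv_cancel_right]
  obtain ⟨σ, κ, g, h1, h3, h4, h5⟩ := ssim_of_odd hB hK hd hX hπ hk hm hpow
  refine ⟨σ, κ, g, h1, h3, h4, fun x y hxy => ?_⟩
  rw [← h5 x y hxy]
  rfl

/-- **`Out` of the quotients of `Sp(V)` by central subgroups is solvable**, `dim V ≥ 4`, any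
characteristic. -/
theorem derived_le_conj_all (hK : 3 < Nat.card K) (hd : 2 < finrank K V)
    {X : Subgroup (SpecialLinearGroup K V)}
    (hX : ∀ g : SpecialLinearGroup K V, g ∈ X ↔ ∀ x y, B (g x) (g y) = B x y)
    {L : Type*} [Group L] {π : X →* L} (hπ : Function.Surjective π) (hk : π.ker ≤ center X) :
    derivedSeries (MulAut L) 2 ≤ (MulAut.conj : L →* MulAut L).range := by
  by_cases hc : (2 : K) ≠ 0 ∨ 4 < finrank K V
  · exact derived_le_conj hB hK hd hc hX hπ hk
  push Not at hc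
  have hd4 := four_of hB hd (by omega)
  obtain ⟨e, π', h1, h3, h4, h5⟩ := exists_model hB (by omega) hX hπ hk
  exact derived_le_four hB hc.1 (by omega) hd4 h1 (ker_eq hB hc.1 h3)

/-- **Automorphisms of odd order prime to `|Aut K|` are inner**, `dim V ≥ 4`, any
characteristic. -/
theorem inner_of_coprime_all (hK : 3 < Nat.card K) (hd : 2 < finrank K V)
    {X : Subgroup (SpecialLinearGroup K V)}
    (hX : ∀ g : SpecialLinearGroup K V, g ∈ X ↔ ∀ x y, B (g x) (g y) = B x y)
    {L : Type*} [Group L] {π : X →* L} (hπ : Function.Surjective π) (hk : π.ker ≤ center X)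
    {α : MulAut L} {m : ℕ} (hm : Odd m) (hcp : m.Coprime (Nat.card (K ≃+* K))) (h : α ^ m = 1) :
    α ∈ (MulAut.conj : L →* MulAut L).range := by
  haveI : Finite V := Module.finite_of_finite K
  obtain ⟨e, π', h1, h3, h4, h5⟩ := exists_model hB (by omega) hX hπ hk
  exact inner_of_coprime_one hB (exists_ne_of hB (by omega)) h1 h3
    (exists_ssim_odd hB hK hd h1 h3 hm h) hm hcp h

end Pairs

end Vale.Agent.P180.R2.H589.Sx
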