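import Vale.Agent.P180.R2.H589.Sp.Au4

/-!
P180: automorphisms of `Sp(V)`, characteristic two, `dim V ≥ 6`: the first transvection group.
-/

set_option linter.all false

namespace Vale.Agent.P180.R2.H589.Sx

open Subgroup Module
open LinearMap (BilinForm)
open Vale.Agent.P180.R2.H589.Sch
open Vale.Agent.P180.R2.H589.Sp
open scoped Pointwise

section Two

variable {K V : Type*} [Field K] [AddCommGroup V] [Module K V] {B : BilinForm K V}

theorem sq_inj (h2 : (2 : K) = 0) {a b : K} (h : a ^ 2 = b ^ 2) : a = b := by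
  have h3 : (a - b) ^ 2 = 0 := by linear_combination h - b * (a - b) * h2
  exact sub_eq_zero.mp (pow_eq_zero_iff two_ne_zero |>.mp h3)

theorem one_of_sq (h2 : (2 : K) = 0) {l : K} (h : l ^ 2 = 1) : l = 1 :=
  sq_inj h2 (by rw [h, one_pow])

theorem exists_root [Finite K] (h2 : (2 : K) = 0) (c : K) : ∃ l : K, l ^ 2 = c :=
  Finite.injective_iff_surjective.mp (fun a b h => sq_inj h2 h : Function.Injective
    fun l : K => l ^ 2) c

/-- The centre is trivial. -/
theorem center_triv (h2 : (2 : K) = 0) (hB : Sy B) {z : SpG B} (hz : z ∈ center (SpG B)) :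
    z = 1 := by
  obtain ⟨c, hc⟩ := scalar_of_center hB hz
  apply Subtype.ext
  apply LinearEquiv.ext
  intro v
  by_cases hv : v = 0
  · rw [hv, map_zero, map_zero]
  obtain ⟨y, hy⟩ := hB.exists_one hv
  have h3 := mem_SpG.mp z.2 v y
  rw [hc, hc, map_smul, map_smul, LinearMap.smul_apply, hy, smul_eq_mul, smul_eq_mul,
    mul_one] at h3
  have h4 : c = 1 := one_of_sq h2 (by rw [pow_two]; exact h3)
  rw [hc, h4, one_smul]
  rfl

theorem pi_inj (h2 : (2 : K) = 0) (hB : Sy B) {T : Type*} [Group T] {π : SpG B →* T}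
    (hker : π.ker = center (SpG B)) : Function.Injective π := by
  rw [← MonoidHom.ker_eq_bot_iff, eq_bot_iff]
  intro z hz
  rw [hker] at hz
  exact Subgroup.mem_bot.mpr (center_triv h2 hB hz)

/-- **Transvections are not squares.** -/
theorem not_sq (h2 : (2 : K) = 0) (hB : Sy B) {v : V} (hv : v ≠ 0) {c : K} (hc : c ≠ 0)
    (u : SpG B) : u ^ 2 ≠ tG hB v c := by
  intro h
  have h3 : u * tG hB v c * u⁻¹ = tG hB v c := by
    rw [← h]
    group
  rw [tG_conj] at h3
  obtain ⟨k, hk⟩ := tS_eq hB hv hc (congrArg Subtype.val h3.symm)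
  obtain ⟨x, hx⟩ := hB.exists_one hv
  have h4 : (u : V ≃ₗ[K] V) ((u : V ≃ₗ[K] V) x) = x + (c * B x v) • v := by
    have h5 := congrArg (fun e : SpG B => (e : V ≃ₗ[K] V) x) h
    simp only [pow_two] at h5
    exact h5
  have h5 := mem_SpG.mp u.2 ((u : V ≃ₗ[K] V) x) x
  rw [h4, map_add, map_smul, LinearMap.add_apply, LinearMap.smul_apply, smul_eq_mul,
    hB.neg v x, hx] at h5
  have h7 : B ((u : V ≃ₗ[K] V) x) x = - B x ((u : V ≃ₗ[K] V) x) := hB.neg _ _
  have h6 : c * B v ((u : V ≃ₗ[K] V) x) = 0 := by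
    linear_combination (B x ((u : V ≃ₗ[K] V) x)) * h2 - h5 - h7
  have h8 := mem_SpG.mp u.2 v x
  rw [hk, map_smul, LinearMap.smul_apply, (mul_eq_zero.mp h6).resolve_left hc, hx,
    smul_zero] at h8
  exact zero_ne_one h8

/-- a vector in the orthogonal space of a line, but not in the line -/
theorem exists_indep [Module.Finite K V] (hd : 2 < finrank K V) (y : V) :
    ∃ b : V, B y b = 0 ∧ ∀ k : K, b ≠ k • y := by
  by_contra hcon
  push Not at hcon
  have h1 : LinearMap.ker (B y) ≤ Submodule.span K {y} := by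
    intro b hb
    obtain ⟨k, hk⟩ := hcon b (LinearMap.mem_ker.mp hb)
    exact Submodule.mem_span_singleton.mpr ⟨k, hk.symm⟩
  have h3 := Submodule.finrank_mono h1
  have h4 : finrank K (Submodule.span K {y}) ≤ 1 := by
    by_cases hy : y = 0
    · rw [hy, Submodule.span_zero_singleton, finrank_bot]
      exact Nat.zero_le _
    · exact (finrank_span_singleton hy).le
  have h5 := LinearMap.finrank_range_add_finrank_ker (B y)
  have h6 : finrank K (LinearMap.range (B y)) ≤ 1 := by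
    have h7 := Submodule.finrank_le (LinearMap.range (B y))
    rwa [Module.finrank_self] at h7
  omega

end Two

variable {K W : Type*} [Field K] [AddCommGroup W] [Module K W] {B : BilinForm K W}

section Levi

variable (hB : Sy B)

theorem lG_mul (m m' : SpG B) (l l' : Kˣ) :
    lG hB m l * lG hB m' l' = lG hB (m * m') (l * l') := Subtype.ext (lv_mul _ _ l l')

theorem lG_one : lG hB 1 1 = 1 := Subtype.ext lv_one

theorem lG_oo (m : SpG B) (l : Kˣ) :
    ((lG hB m l : SpG (hyp B)) : (K × W × K) ≃ₗ[K] (K × W × K)) (oo K W) =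
      (l : K) • oo K W := by
  refine Prod.ext rfl (Prod.ext ?_ ?_)
  · change (m : W ≃ₗ[K] W) 0 = (l : K) • (0 : W)
    rw [map_zero, smul_zero]
  · change ((l⁻¹ : Kˣ) : K) * 0 = (l : K) * 0
    rw [mul_zero, mul_zero]

theorem lG_o' (m : SpG B) (l : Kˣ) :
    ((lG hB m l : SpG (hyp B)) : (K × W × K) ≃ₗ[K] (K × W × K)) (o' K W) =
      ((l⁻¹ : Kˣ) : K) • o' K W := by
  refine Prod.ext ?_ (Prod.ext ?_ rfl)
  · change (l : K) * 0 = ((l⁻¹ : Kˣ) : K) * 0
    rw [mul_zero, mul_zero]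
  · change (m : W ≃ₗ[K] W) 0 = ((l⁻¹ : Kˣ) : K) • (0 : W)
    rw [map_zero, smul_zero]

theorem lG_inj {m m' : SpG B} {l l' : Kˣ} (h : lG hB m l = lG hB m' l') : m = m' := by
  apply Subtype.ext
  apply LinearEquiv.ext
  intro x
  have h1 := congrArg (fun e : SpG (hyp B) =>
    ((e : (K × W × K) ≃ₗ[K] (K × W × K)) (0, x, 0)).2.1) h
  exact h1

theorem sq_form {m : SpG B} (hm : m * m = 1) (y : W) :
    (qG hB y 0 * lG hB m 1) ^ 2 =
      qG hB (y + (m : W ≃ₗ[K] W) y) (- B ((m : W ≃ₗ[K] W) y) y) := by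
  have h1 : lG hB m 1 * lG hB m 1 = 1 := by
    rw [lG_mul, hm, mul_one, lG_one]
  have h3 := lG_qG hB m 1 y 0
  rw [Units.val_one, one_smul, mul_zero] at h3
  have h4 : (qG hB y 0 * lG hB m 1) ^ 2 = qG hB y 0 *
      (lG hB m 1 * qG hB y 0 * (lG hB m 1)⁻¹) * (lG hB m 1 * lG hB m 1) := by
    rw [pow_two]
    group
  rw [h4, h1, mul_one, h3, qG_mul, zero_add, zero_sub]

/-- **The other elements of the radical are squares.** -/
theorem exists_sq [Module.Finite K W] (h2 : (2 : K) = 0) (hd : 2 < finrank K W) {y : W}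
    (hy : y ≠ 0) (c : K) : ∃ g : SpG (hyp B), g ^ 2 = qG hB y c := by
  have h2W : ∀ x : W, x + x = 0 := by
    intro x
    rw [← two_smul K, h2, zero_smul]
  by_cases hc : c = 0
  · obtain ⟨b, hb1, hb2⟩ := exists_indep (B := B) hd y
    obtain ⟨z, hz1, hz2⟩ : ∃ z : W, B z y = 0 ∧ B z b ≠ 0 := by
      by_contra hcon
      push Not at hcon
      obtain ⟨k, hk⟩ := exists_smul_of_perp hB hy hcon
      exact hb2 k hk
    have hby : B b y = 0 := by rw [hB.neg, hb1, neg_zero]
    obtain ⟨m, hm⟩ : ∃ m : SpG B, m = tG hB (y + b) 1 * (tG hB y 1 * tG hB b 1) := ⟨_, rfl⟩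
    have hmx : ∀ x, (m : W ≃ₗ[K] W) x = x + B x y • b + B x b • y := by
      intro x
      rw [hm]
      change tS hB (y + b) 1 (tS hB y 1 (tS hB b 1 x)) = _
      rw [tS_apply, tS_apply, tS_apply]
      simp only [map_add, map_smul, LinearMap.add_apply, LinearMap.smul_apply, smul_eq_mul,
        one_mul, hB.alt, hb1, hby, mul_zero, add_zero]
      have h3 := h2W (B x b • b)
      have h4 := h2W (B x y • y)
      have e : x + B x b • b + B x y • y + (B x y + B x b) • (y + b) =
        x + B x y • b + B x b • y + (B x b • b + B x b • b) + (B x y • y + B x y • y) := by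
        module
      rw [e, h3, h4, add_zero, add_zero]
    have hmm : m * m = 1 := by
      apply Subtype.ext
      apply LinearEquiv.ext
      intro x
      change (m : W ≃ₗ[K] W) ((m : W ≃ₗ[K] W) x) = x
      rw [hmx, hmx]
      simp only [map_add, map_smul, LinearMap.add_apply, LinearMap.smul_apply, smul_eq_mul,
        hB.alt, hb1, hby, mul_zero, add_zero]
      have h3 := h2W (B x y • b)
      have h4 := h2W (B x b • y)
      have e : x + B x y • b + B x b • y + B x y • b + B x b • y =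
        x + (B x y • b + B x y • b) + (B x b • y + B x b • y) := by abel
      rw [e, h3, h4, add_zero, add_zero]
    obtain ⟨w, hw⟩ : ∃ w, w = (B z b)⁻¹ • z := ⟨_, rfl⟩
    have hwy : B w y = 0 := by
      rw [hw, map_smul, LinearMap.smul_apply, hz1, smul_zero]
    have hwb : B w b = 1 := by
      rw [hw, map_smul, LinearMap.smul_apply, smul_eq_mul, inv_mul_cancel₀ hz2]
    have hmw : (m : W ≃ₗ[K] W) w = w + y := by
      rw [hmx, hwy, hwb, zero_smul, one_smul, add_zero]
    refine ⟨qG hB w 0 * lG hB m 1, ?_⟩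
    rw [sq_form hB hmm, hmw, hc, ← add_assoc, h2W, zero_add]
    congr 1
    rw [map_add, LinearMap.add_apply, hB.alt, hB.neg w y, hwy, neg_zero, add_zero, neg_zero]
  · obtain ⟨z, hz⟩ := hB.exists_one hy
    obtain ⟨w, hw⟩ : ∃ w, w = (-c) • z := ⟨_, rfl⟩
    have hyw : B y w = -c := by rw [hw, map_smul, hz, smul_eq_mul, mul_one]
    have hwy : B w y = c := by rw [hB.neg y w, hyw, neg_neg]
    have hmm : tG hB y c⁻¹ * tG hB y c⁻¹ = 1 := by
      rw [tG_add, ← two_mul, h2, zero_mul, tG_zero]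
    have hmw : ((tG hB y c⁻¹ : SpG B) : W ≃ₗ[K] W) w = w + y := by
      change tS hB y c⁻¹ w = w + y
      rw [tS_apply, hwy, inv_mul_cancel₀ hc, one_smul]
    refine ⟨qG hB w 0 * lG hB (tG hB y c⁻¹) 1, ?_⟩
    rw [sq_form hB hmm, hmw, ← add_assoc, h2W, zero_add]
    congr 1
    rw [map_add, LinearMap.add_apply, hB.alt, hyw, zero_add, neg_neg]

end Levi

section Q

variable (hB : Sy B) {T : Type*} [Group T] {π : SpG (hyp B) →* T}
  (p : ℕ) [hp : Fact p.Prime] [CharP K p] [Finite K] [Finite W] (h2 : (2 : K) = 0)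
  (hker : π.ker = center (SpG (hyp B)))

include hker h2 in
omit [Finite K] [Finite W] in
/-- The centraliser of the radical. -/
theorem cent_RT {g : SpG (hyp B)} (h : ∀ t ∈ RT hB π, π g * t = t * π g) : π g ∈ RT hB π := by
  have hi := pi_inj h2 (hyp_sy hB) hker
  have hk : ∀ y c, g * qG hB y c * g⁻¹ = qG hB y c := by
    intro y c
    apply hi
    rw [map_mul, map_mul, map_inv, h _ (qG_mem_RT hB π y c), mul_inv_cancel_right]
  have h1 : ∃ k : K, (g : (K × W × K) ≃ₗ[K] (K × W × K)) (oo K W) = k • oo K W := by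
    have h3 := hk 0 (-1)
    rw [qG_tG, tG_conj] at h3
    refine tS_eq (hyp_sy hB) oo_ne ?_ (congrArg Subtype.val h3.symm)
    rw [neg_neg]
    exact one_ne_zero
  obtain ⟨k, hgk⟩ := h1
  obtain ⟨m, l, y₀, c₀, hl, rfl⟩ := decomp hB hgk
  have hk' : ∀ y c, (l : K) • (m : W ≃ₗ[K] W) y = y ∧ (l : K) ^ 2 * (c + 2 * B y₀ y) = c := by
    intro y c
    have h3 := hk y c
    have h4 : lG hB m l * qG hB y₀ c₀ * qG hB y c * (lG hB m l * qG hB y₀ c₀)⁻¹ =
      lG hB m l * (qG hB y₀ c₀ * qG hB y c * (qG hB y₀ c₀)⁻¹) * (lG hB m l)⁻¹ := by group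
    rw [h4, qG_conj, lG_qG] at h3
    exact qG_inj hB h3
  have hl2 : (l : K) ^ 2 = 1 := by
    have h3 := (hk' 0 1).2
    rwa [map_zero, mul_zero, add_zero, mul_one] at h3
  have hl1 : l = 1 := Units.ext (one_of_sq h2 hl2)
  have hm1 : m = 1 := by
    apply Subtype.ext
    apply LinearEquiv.ext
    intro y
    have h3 := (hk' y 0).1
    rw [hl1, Units.val_one, one_smul] at h3
    exact h3
  rw [hl1, hm1, lG_one, one_mul]
  exact qG_mem_RT hB π _ _

include hp hker h2 in
/-- `p`-subgroups which contain the radical fix the first vector. -/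
theorem fix_oo {S : Subgroup T} (hSp : IsPGroup p S) (hS : RT hB π ≤ S) {g : SpG (hyp B)}
    (hg : π g ∈ S) : (g : (K × W × K) ≃ₗ[K] (K × W × K)) (oo K W) = oo K W := by
  have hi := pi_inj h2 (hyp_sy hB) hker
  have hYp : IsPGroup p (S.comap π) := hSp.comap_of_injective π hi
  obtain ⟨v, hv, hfix⟩ := Bt.exists_fixed_gen hYp
    (fun (y : S.comap π) (x : K × W × K) =>
      ((y : SpG (hyp B)) : (K × W × K) ≃ₗ[K] (K × W × K)) x)
    (fun x => rfl) (fun y z x => rfl)
    (by
      rw [Module.natCard_eq_pow_finrank (K := K)]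
      refine dvd_pow Bt.dvd_card_K ?_
      haveI : Module.Finite K W := Module.Finite.of_finite
      rw [Module.finrank_prod, Module.finrank_prod, Module.finrank_self]
      omega) (x₀ := (0 : K × W × K)) (fun y => map_zero _)
  have h1 : ∀ y c, qq B y c v = v := fun y c => hfix ⟨qG hB y c, hS (qG_mem_RT hB π y c)⟩
  have h3 : v.2.2 = 0 := by
    have h4 := congrArg Prod.fst (h1 0 1)
    rw [qq_apply, map_zero, sub_zero, one_mul] at h4
    exact add_eq_left.mp h4
  have h4 : v.2.1 = 0 := by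
    apply hB.nd
    intro y
    have h5 := congrArg Prod.fst (h1 y 0)
    rw [qq_apply, zero_mul, add_zero] at h5
    exact sub_eq_self.mp h5
  have h5 : v = v.1 • oo K W := by
    refine Prod.ext (mul_one _).symm (Prod.ext ?_ ?_)
    · rw [h4]
      exact (smul_zero _).symm
    · rw [h3]
      exact (mul_zero _).symm
  have h6 : v.1 ≠ 0 := by
    intro h7
    rw [h7, zero_smul] at h5
    exact hv h5
  have h7 : (g : (K × W × K) ≃ₗ[K] (K × W × K)) v = v := hfix ⟨g, hg⟩
  rw [h5, map_smul] at h7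
  exact smul_right_injective _ h6 h7

include hp hker h2 in
/-- **The first transvection group in terms of a Sylow subgroup.** -/
theorem mem_XT_iff (hd : 2 < finrank K W) (hπ : Function.Surjective π) {S : Sylow p T}
    (hS : RT hB π ≤ S) (t : T) : t ∈ XT π (hyp_sy hB) (oo K W) ↔
      t ∈ centralizer (S : Set T) ⊓ S ∧ (t = 1 ∨ ¬ ∃ g : T, g ^ 2 = t) := by
  haveI : Module.Finite K W := Module.Finite.of_finite
  have hV := hyp_sy hB
  have hi := pi_inj h2 hV hker
  constructor
  · rintro ⟨c, rfl⟩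
    refine ⟨⟨mem_centralizer_iff.mpr ?_, hS (XT_oo_le hB π (tG_mem_XT π _ _ _))⟩, ?_⟩
    · intro s hs
      obtain ⟨g, rfl⟩ := hπ s
      have h3 := fix_oo hB p h2 hker S.isPGroup' hS hs
      rw [← map_mul, ← map_mul]
      congr 1
      rw [← mul_inv_eq_iff_eq_mul, tG_conj, h3]
    · by_cases hc : c = 0
      · left
        rw [hc, tG_zero, map_one]
      · right
        rintro ⟨g, hg⟩
        obtain ⟨g, rfl⟩ := hπ g
        rw [← map_pow] at hg
        exact not_sq h2 hV oo_ne hc g (hi hg)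
  · rintro ⟨⟨h1, h3⟩, h4⟩
    obtain ⟨g, rfl⟩ := hπ t
    rcases h4 with h4 | h4
    · rw [h4]
      exact Subgroup.one_mem _
    have h5 : π g ∈ RT hB π := cent_RT hB h2 hker fun s hs =>
      (mem_centralizer_iff.mp h1 s (hS hs)).symm
    obtain ⟨y, c, h6⟩ := h5
    by_cases hy : y = 0
    · rw [h6, hy, qG_tG]
      exact tG_mem_XT π _ _ _
    · exfalso
      obtain ⟨u, hu⟩ := exists_sq hB h2 hd hy c
      exact h4 ⟨π u, by rw [← map_pow, hu, h6]⟩

include hp hker h2 in
/-- After composition with an inner automorphism, an automorphism stabilises the first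
transvection group. -/
theorem exists_fix_XT (hd : 2 < finrank K W) (hπ : Function.Surjective π) [Finite T]
    (α : MulAut T) : ∃ t : T, ∀ x, (MulAut.conj t * α) x ∈
    XT π (hyp_sy hB) (oo K W) ↔ x ∈ XT π (hyp_sy hB) (oo K W) := by
  obtain ⟨S, hS⟩ := (isPGroup_RT hB π p).exists_le_sylow
  obtain ⟨t, ht⟩ := MulAction.exists_smul_eq T (α • S) S
  rw [Sylow.smul_def, smul_smul] at ht
  have h3 : ∀ x, (MulAut.conj t * α) x ∈ S ↔ x ∈ S := by
    intro x
    have h4 : (MulAut.conj t * α) • x ∈ ((MulAut.conj t * α) • (S : Subgroup T)) ↔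
      x ∈ (S : Subgroup T) := smul_mem_pointwise_smul_iff
    rw [← Sylow.pointwise_smul_def, ht] at h4
    exact h4
  obtain ⟨β, hβ⟩ : ∃ β : MulAut T, β = MulAut.conj t * α := ⟨_, rfl⟩
  rw [← hβ] at h3
  refine ⟨t, fun x => ?_⟩
  rw [← hβ, mem_XT_iff hB p h2 hker hd hπ hS, mem_XT_iff hB p h2 hker hd hπ hS]
  have h5 : ∀ {β : MulAut T}, (∀ x, β x ∈ S ↔ x ∈ S) → ∀ x,
      (x ∈ centralizer (S : Set T) ⊓ S ∧ (x = 1 ∨ ¬ ∃ g : T, g ^ 2 = x)) →
      (β x ∈ centralizer (S : Set T) ⊓ S ∧ (β x = 1 ∨ ¬ ∃ g : T, g ^ 2 = β x)) := by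
    rintro β h3 x ⟨⟨hx1, hx2⟩, hx3⟩
    refine ⟨⟨mem_centralizer_iff.mpr fun s hs => ?_, (h3 x).mpr hx2⟩, ?_⟩
    · obtain ⟨s, rfl⟩ := β.surjective s
      rw [← map_mul, ← map_mul, mem_centralizer_iff.mp hx1 s ((h3 s).mp hs)]
    · rcases hx3 with hx3 | hx3
      · left
        rw [hx3, map_one]
      · right
        rintro ⟨g, hg⟩
        obtain ⟨g, rfl⟩ := β.surjective g
        rw [← map_pow] at hg
        exact hx3 ⟨g, β.injective hg⟩
  constructor
  · intro h
    have h6 := h5 (β := β⁻¹) (fun y => by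
      rw [← h3, MulAut.apply_inv_self]) _ h
    rwa [MulAut.inv_apply_self] at h6
  · exact h5 h3 x

end Q

end Vale.Agent.P180.R2.H589.Sx
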