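import Vale.Agent.P180.R2.H589.Sx.Au2

/-!
P180: automorphisms of `Sp(V)`, characteristic two, `dim V ≥ 6`: the action on the radical.
-/

set_option linter.all false

namespace Vale.Agent.P180.R2.H589.Sx

open Subgroup Module
open LinearMap (BilinForm)
open Vale.Agent.P180.R2.H589.Sch
open Vale.Agent.P180.R2.H589.Sp

variable {K W : Type*} [Field K] [AddCommGroup W] [Module K W] {B : BilinForm K W}

section Radical

variable (hB : Sy B) {T : Type*} [Group T] {π : SpG (hyp B) →* T}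
  (p : ℕ) [hp : Fact p.Prime] [CharP K p] [Finite K] [Finite W] (hK : 2 < Nat.card K)
  (hW : ∃ x : W, x ≠ 0) (hker : π.ker = center (SpG (hyp B))) (hπ : Function.Surjective π)

section Op

include hp hker hK hW

/-- **The radical is the largest normal `p`-subgroup of the normaliser of the first transvection
group.** -/
theorem le_RT {Q : Subgroup T} (hQ : IsPGroup p Q)
    (h1 : ∀ t ∈ Q, ∀ x ∈ XT π (hyp_sy hB) (oo K W), t * x * t⁻¹ ∈ XT π (hyp_sy hB) (oo K W))
    (hn : ∀ t, (∀ x ∈ XT π (hyp_sy hB) (oo K W), t * x * t⁻¹ ∈ XT π (hyp_sy hB) (oo K W)) →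
      ∀ q ∈ Q, t * q * t⁻¹ ∈ Q) : ∀ g : SpG (hyp B), π g ∈ Q → π g ∈ RT hB π := by
  have hV := hyp_sy hB
  haveI : Finite ((K × W × K) ≃ₗ[K] (K × W × K)) := finite_gl
  let Y : Subgroup (SpG (hyp B)) :=
    { carrier := {g | Pel p g ∧ π g ∈ Q}
      one_mem' := ⟨pel_one, by rw [map_one]; exact Q.one_mem⟩
      mul_mem' := by
        rintro g h ⟨h1, h2⟩ ⟨h3, h4⟩
        refine ⟨pel_mul hker.le (not_dvd_ker p hV hker) hQ h1 h3 h2 h4, ?_⟩
        rw [map_mul]
        exact Q.mul_mem h2 h4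
      inv_mem' := by
        rintro g ⟨h1, h2⟩
        refine ⟨h1.inv, ?_⟩
        rw [map_inv]
        exact Q.inv_mem h2 }
  have hYp : IsPGroup p Y := Bt.isPGroup_iff.mpr fun x hx => hx.1
  have hYS : ∀ g ∈ Y, (g : (K × W × K) ≃ₗ[K] (K × W × K)) ∈ StS B := by
    intro g hg
    exact ⟨g.2, line_of_norm p hV hker oo_ne (h1 _ hg.2)⟩
  obtain ⟨x₀, hx₀, hfix⟩ := Bt.exists_fixed_gen hYp
    (fun (y : Y) (x : W) => blF ((y : SpG (hyp B)) : (K × W × K) ≃ₗ[K] (K × W × K)) x)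
    (fun x => blF_one x) (fun y z x => blF_mul (hYS y y.2) (hYS z z.2) x)
    (by
      obtain ⟨x, hx⟩ := hW
      rw [Module.natCard_eq_pow_finrank (K := K)]
      refine dvd_pow Bt.dvd_card_K ?_
      intro h0
      have h3 : Subsingleton W := Module.finrank_zero_iff.mp h0
      exact hx (Subsingleton.elim _ _)) (x₀ := (0 : W)) (fun y => map_zero _)
  have hbl : ∀ g ∈ Y, ∀ w : W, blF (g : (K × W × K) ≃ₗ[K] (K × W × K)) w = w := by
    intro g hg w
    by_cases hw : w = 0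
    · rw [hw, map_zero]
    obtain ⟨m, hm, hmw⟩ := TG_trans hB hK hx₀ hw
    have hm' := TG_le hB hm
    obtain ⟨a, ha⟩ : ∃ a : SpG (hyp B), a = lG hB ⟨m, hm'⟩ 1 := ⟨_, rfl⟩
    have haS : (a : (K × W × K) ≃ₗ[K] (K × W × K)) ∈ StS B := by
      rw [ha]
      exact lv_St hB hm' 1
    have haX : ∀ x ∈ XT π hV (oo K W), π a⁻¹ * x * (π a⁻¹)⁻¹ ∈ XT π hV (oo K W) := by
      intro x hx
      have h3 := XT_conj π hV a⁻¹ (oo K W) hx
      have h4 : ((a⁻¹ : SpG (hyp B)) : (K × W × K) ≃ₗ[K] (K × W × K)) (oo K W) = oo K W := by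
        change (a : (K × W × K) ≃ₗ[K] (K × W × K)).symm (oo K W) = oo K W
        rw [LinearEquiv.symm_apply_eq, ha]
        change oo K W = lv m 1 (oo K W)
        rw [lv_apply]
        refine Prod.ext ?_ (Prod.ext ?_ ?_)
        · change (1 : K) = ((1 : Kˣ) : K) * 1
          rw [Units.val_one, one_mul]
        · exact (map_zero m).symm
        · exact (mul_zero _).symm
      rwa [h4] at h3
    have hcj : a⁻¹ * g * a ∈ Y := by
      have h3 : a⁻¹ * g * a = a⁻¹ * g * a⁻¹⁻¹ := by rw [inv_inv]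
      rw [h3]
      refine ⟨hg.1.conj _, ?_⟩
      rw [map_mul, map_mul, map_inv π a⁻¹]
      exact hn _ haX _ hg.2
    have h3 := hfix ⟨_, hcj⟩
    change blF ((a⁻¹ * g * a : SpG (hyp B)) : (K × W × K) ≃ₗ[K] (K × W × K)) x₀ = x₀ at h3
    have h4 : (g : (K × W × K) ≃ₗ[K] (K × W × K)) * a =
        a * ((a⁻¹ * g * a : SpG (hyp B)) : (K × W × K) ≃ₗ[K] (K × W × K)) := by
      rw [← Subgroup.coe_mul, ← Subgroup.coe_mul]
      congr 1
      group
    have h5 := congrArg (fun e => blF e x₀) h4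
    rw [blF_mul (hYS g hg) haS, blF_mul haS (hYS _ hcj), h3] at h5
    have h6 : blF (a : (K × W × K) ≃ₗ[K] (K × W × K)) x₀ = w := by
      rw [ha, ← hmw]
      rfl
    rwa [h6] at h5
  intro g hg
  obtain ⟨y, hyp, hyg⟩ := exists_pel (p := p) (not_dvd_ker p hV hker)
    (Bt.isPGroup_iff.mp hQ _ hg) ⟨g, rfl⟩
  have hyY : y ∈ Y := ⟨hyp, by rw [hyg]; exact hg⟩
  have hyS := hYS y hyY
  have hlam : lamF (y : (K × W × K) ≃ₗ[K] (K × W × K)) = 1 := by
    obtain ⟨n, hn⟩ := hyp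
    have h3 : ∀ i : ℕ, ((y : (K × W × K) ≃ₗ[K] (K × W × K)) ^ i) (oo K W) =
        (lamF (y : (K × W × K) ≃ₗ[K] (K × W × K))) ^ i • oo K W := by
      intro i
      induction i with
      | zero => rw [pow_zero, pow_zero, one_smul]; rfl
      | succ i ih => rw [pow_succ', LinearEquiv.mul_apply, ih, map_smul, lamF_spec hyS, smul_smul,
          pow_succ]
    have h4 := h3 (p ^ n)
    have h5 : (y : (K × W × K) ≃ₗ[K] (K × W × K)) ^ p ^ n = 1 := by
      rw [← Subgroup.coe_pow, hn]; rfl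
    rw [h5] at h4
    have h6 := congrArg Prod.fst h4
    change (1 : K) = (lamF (y : (K × W × K) ≃ₗ[K] (K × W × K))) ^ p ^ n * 1 at h6
    rw [mul_one] at h6
    have h7 : (lamF (y : (K × W × K) ≃ₗ[K] (K × W × K)) - 1) ^ p ^ n = 0 := by
      rw [sub_pow_char_pow, ← h6, one_pow, sub_self]
    exact sub_eq_zero.mp (pow_eq_zero_iff (pow_ne_zero n hp.out.ne_zero) |>.mp h7)
  have h3 : bl B ⟨_, hyS⟩ = 1 := by
    apply Subtype.ext
    apply LinearEquiv.ext
    intro x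
    exact hbl y hyY x
  have h4 : lam B ⟨_, hyS⟩ = 1 := Units.ext hlam
  obtain ⟨z, c, h5⟩ := exists_qq hB h3 h4
  rw [← hyg]
  exact ⟨z, c, congrArg π (Subtype.ext h5)⟩

end Op

include hp hker hK hW hπ

theorem map_RT_le {β : MulAut T} (hβ : ∀ x, β x ∈ XT π (hyp_sy hB) (oo K W) ↔
    x ∈ XT π (hyp_sy hB) (oo K W)) {x : T} (hx : x ∈ RT hB π) : β x ∈ RT hB π := by
  have hV := hyp_sy hB
  obtain ⟨Q, hQ⟩ : ∃ Q, Q = (RT hB π).map β.toMonoidHom := ⟨_, rfl⟩
  have hQp : IsPGroup p Q := by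
    rw [hQ]
    exact (isPGroup_RT hB π p).map _
  have hnorm : ∀ {t : T}, t ∈ RT hB π → ∀ x ∈ XT π hV (oo K W), t * x * t⁻¹ ∈ XT π hV (oo K W) := by
    rintro _ ⟨y, c, rfl⟩ x hx
    have h3 := XT_conj π hV (qG hB y c) (oo K W) hx
    rwa [qG_oo] at h3
  obtain ⟨g, hg⟩ := hπ (β x)
  rw [← hg]
  refine le_RT hB p hK hW hker hQp ?_ ?_ g ?_
  · rw [hQ]
    rintro _ ⟨r, hr, rfl⟩ x hx
    obtain ⟨x, rfl⟩ := β.surjective x
    change β r * β x * (β r)⁻¹ ∈ _
    rw [← map_inv, ← map_mul, ← map_mul, hβ]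
    exact hnorm hr x ((hβ x).mp hx)
  · intro t ht q hq
    rw [hQ] at hq ⊢
    obtain ⟨r, hr, rfl⟩ := hq
    obtain ⟨t, rfl⟩ := β.surjective t
    obtain ⟨g, rfl⟩ := hπ t
    have h3 : ∀ x ∈ XT π hV (oo K W), π g * x * (π g)⁻¹ ∈ XT π hV (oo K W) := by
      intro x hx
      have h4 := ht (β x) ((hβ x).mpr hx)
      rw [← map_inv, ← map_mul, ← map_mul, hβ] at h4
      exact h4
    obtain ⟨k, hk⟩ := line_of_norm p hV hker oo_ne h3
    refine ⟨_, RT_conj hB hk hr, ?_⟩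
    change β (π g * r * (π g)⁻¹) = β (π g) * β r * (β (π g))⁻¹
    rw [map_mul, map_mul, map_inv]
  · rw [hQ, hg]
    exact ⟨x, hx, rfl⟩

omit hp [CharP K p] [Finite K] [Finite W] hK hW hπ in
theorem piq_inj (h2 : (2 : K) = 0) {y y' : W} {c c' : K}
    (h : π (qG hB y c) = π (qG hB y' c')) : y = y' ∧ c = c' :=
  qG_inj hB (pi_inj h2 (hyp_sy hB) hker h)

end Radical

section Levi

variable (hB : Sy B) {T : Type*} [Group T] {π : SpG (hyp B) →* T}
  (p : ℕ) [hp : Fact p.Prime] [CharP K p] [Finite K] [Finite W]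
  (hker : π.ker = center (SpG (hyp B))) (hπ : Function.Surjective π)

omit [Finite K] [Finite W] [CharP K p] hp in
theorem o'_ne : o' K W ≠ 0 := fun h => one_ne_zero (congrArg (fun u : K × W × K => u.2.2) h)

include hp hker hπ in
/-- Levi elements are mapped to Levi elements. -/
theorem levi_img {β : MulAut T}
    (ht1 : ∀ x, β x ∈ XT π (hyp_sy hB) (oo K W) ↔ x ∈ XT π (hyp_sy hB) (oo K W))
    (ht2 : ∀ x, β x ∈ XT π (hyp_sy hB) (o' K W) ↔ x ∈ XT π (hyp_sy hB) (o' K W))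
    (m : SpG B) (l : Kˣ) : ∃ (m' : SpG B) (l' : Kˣ), β (π (lG hB m l)) = π (lG hB m' l') := by
  have hV := hyp_sy hB
  obtain ⟨a, ha⟩ : ∃ a, a = lG hB m l := ⟨_, rfl⟩
  obtain ⟨b, hb⟩ := hπ (β (π a))
  have hb1 : ∀ (v : K × W × K) (k : K), k ≠ 0 → (∀ x, β x ∈ XT π hV v ↔ x ∈ XT π hV v) →
      (a : (K × W × K) ≃ₗ[K] (K × W × K)) v = k • v →
      ∀ x ∈ XT π hV v, π b * x * (π b)⁻¹ ∈ XT π hV v := by
    intro v k hk hv hav x hx
    obtain ⟨x, rfl⟩ := β.surjective x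
    rw [hb, ← map_inv, ← map_mul, ← map_mul, hv]
    have h3 := XT_conj π hV a v ((hv x).mp hx)
    rwa [hav, XT_smul π hV hk] at h3
  obtain ⟨k, hk⟩ := line_of_norm p hV hker oo_ne
    (hb1 _ (l : K) l.ne_zero ht1 (by rw [ha, lG_oo]))
  obtain ⟨k', hk'⟩ := line_of_norm p hV hker o'_ne
    (hb1 _ ((l⁻¹ : Kˣ) : K) (l⁻¹).ne_zero ht2 (by rw [ha, lG_o']))
  obtain ⟨m', l', y₀, c₀, -, hbd⟩ := decomp hB hk
  have hb2 : y₀ = 0 ∧ c₀ = 0 := by
    rw [hbd] at hk'
    change lv (m' : W ≃ₗ[K] W) l' ((qG hB y₀ c₀ : (K × W × K) ≃ₗ[K] (K × W × K)) (o' K W)) = _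
      at hk'
    rw [qG_o', lv_apply] at hk'
    have h3 := congrArg Prod.fst hk'
    have h4 := congrArg (fun u : K × W × K => u.2.1) hk'
    change (l' : K) * c₀ = k' * 0 at h3
    change (m' : W ≃ₗ[K] W) y₀ = k' • (0 : W) at h4
    rw [mul_zero] at h3
    rw [smul_zero] at h4
    exact ⟨(m' : W ≃ₗ[K] W).map_eq_zero_iff.mp h4, (mul_eq_zero.mp h3).resolve_left l'.ne_zero⟩
  rw [hb2.1, hb2.2, qG_zero, mul_one] at hbd
  exact ⟨m', l', by rw [← ha, ← hb, hbd]⟩

end Levi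

section Maps

variable (hB : Sy B) {T : Type*} [Group T] {π : SpG (hyp B) →* T}
  (p : ℕ) [hp : Fact p.Prime] [CharP K p] [Finite K] [Finite W] (h2 : (2 : K) = 0)
  (hK : 2 < Nat.card K) (hW : ∃ x : W, x ≠ 0) (hker : π.ker = center (SpG (hyp B)))
  (hπ : Function.Surjective π)

include hp hker h2 hK hW hπ

/-- **Automorphisms which stabilise the first transvection groups** act semilinearly on the
radical. -/
theorem exists_maps {β : MulAut T}
    (ht1 : ∀ x, β x ∈ XT π (hyp_sy hB) (oo K W) ↔ x ∈ XT π (hyp_sy hB) (oo K W))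
    (ht2 : ∀ x, β x ∈ XT π (hyp_sy hB) (o' K W) ↔ x ∈ XT π (hyp_sy hB) (o' K W)) :
    ∃ (s : W ≃+ W) (σ : K ≃+* K) (κ : K), κ ≠ 0 ∧
      (∀ (c : K) y, s (c • y) = σ c • s y) ∧
      (∀ y y', B (s y) (s y') = κ * σ (B y y')) ∧
      ∀ y c, β (π (qG hB y c)) = π (qG hB (s y) (κ * σ c)) := by
  have hV := hyp_sy hB
  have hi := pi_inj h2 hV hker
  have hinj : ∀ {y y' : W} {c c' : K}, π (qG hB y c) = π (qG hB y' c') → y = y' ∧ c = c' :=
    fun h => piq_inj hB hker h2 h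
  have hR : ∀ x ∈ RT hB π, β x ∈ RT hB π := fun x hx => map_RT_le hB p hK hW hker hπ ht1 hx
  choose s ν hsν using fun y : W => hR _ (qG_mem_RT hB π y 0)
  have hX : ∀ c : K, ∃ d : K, β (π (qG hB 0 c)) = π (qG hB 0 d) := by
    intro c
    have h3 : β (π (qG hB 0 c)) ∈ XT π hV (oo K W) := by
      rw [ht1, qG_tG]
      exact tG_mem_XT π _ _ _
    obtain ⟨d, hd⟩ := h3
    exact ⟨-d, by rw [hd, tG_qG hB]⟩
  choose τ hτ using hX
  have e1 : ∀ y c, β (π (qG hB y c)) = π (qG hB (s y) (ν y + τ c)) := by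
    intro y c
    rw [qG_add, map_mul, map_mul, hsν, hτ, ← map_mul, qG_mul, map_zero, LinearMap.zero_apply,
      sub_zero, add_zero]
  -- multiplicativity
  have e2 : ∀ y y' c c', s (y + y') = s y + s y' ∧
      ν (y + y') + τ (c + c' - B y' y) = (ν y + τ c) + (ν y' + τ c') - B (s y') (s y) := by
    intro y y' c c'
    have h3 : β (π (qG hB y c * qG hB y' c')) = π (qG hB (s y) (ν y + τ c) *
        qG hB (s y') (ν y' + τ c')) := by
      rw [map_mul, map_mul, e1, e1, map_mul]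
    rw [qG_mul, qG_mul, e1] at h3
    exact hinj h3
  have hsadd : ∀ y y', s (y + y') = s y + s y' := fun y y' => (e2 y y' 0 0).1
  have hs0 : s 0 = 0 := by
    have := hsadd 0 0
    rw [add_zero] at this
    exact add_eq_left.mp this.symm
  have hτadd : ∀ c c', τ (c + c') = τ c + τ c' := by
    intro c c'
    have h3 : β (π (qG hB 0 c * qG hB 0 c')) = π (qG hB 0 (τ c) * qG hB 0 (τ c')) := by
      rw [map_mul, map_mul, hτ, hτ, map_mul]
    rw [qG_mul, qG_mul, map_zero, sub_zero, sub_zero, add_zero, hτ] at h3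
    exact (hinj h3).2
  have hτ0 : τ 0 = 0 := by
    have := hτadd 0 0
    rw [add_zero] at this
    exact add_eq_left.mp this.symm
  have hν0 : ν 0 = 0 := by
    have h3 := e1 0 0
    rw [qG_zero, map_one, map_one, hs0, hτ0, add_zero, ← map_one π, ← qG_zero hB] at h3
    exact (hinj h3).2.symm
  have hτneg : ∀ c, τ (-c) = - τ c := by
    intro c
    have h3 := hτadd (-c) c
    rw [neg_add_cancel, hτ0] at h3
    exact eq_neg_of_add_eq_zero_left h3.symm
  -- injectivity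
  have hτinj : Function.Injective τ := by
    intro c d h
    have h3 : β (π (qG hB 0 c)) = β (π (qG hB 0 d)) := by rw [hτ, hτ, h]
    exact (hinj (β.injective h3)).2
  have hsker : ∀ y, s y = 0 → y = 0 := by
    intro y hy
    have h3 : β (π (qG hB y 0)) ∈ XT π hV (oo K W) := by
      rw [e1, hy, qG_tG]
      exact tG_mem_XT π _ _ _
    rw [ht1] at h3
    obtain ⟨c, hc⟩ := h3
    rw [tG_qG hB] at hc
    exact (hinj hc).1
  let s' : W →+ W := { toFun := s, map_zero' := hs0, map_add' := hsadd }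
  have hsinj : Function.Injective s' := (injective_iff_map_eq_zero s').mpr hsker
  have hsbij : Function.Bijective s' := Finite.injective_iff_bijective.mp hsinj
  let S : W ≃+ W := AddEquiv.ofBijective s' hsbij
  have hS : ∀ y, S y = s y := fun y => rfl
  obtain ⟨κ, hκ⟩ : ∃ κ, κ = τ 1 := ⟨_, rfl⟩
  have hκ0 : κ ≠ 0 := by
    intro h
    rw [hκ, ← hτ0] at h
    exact one_ne_zero (hτinj h)
  -- Levi elements
  have hrel : ∀ {m m' : SpG B} {l l' : Kˣ}, β (π (lG hB m l)) = π (lG hB m' l') → ∀ y c,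
      s ((l : K) • (m : W ≃ₗ[K] W) y) = (l' : K) • (m' : W ≃ₗ[K] W) (s y) ∧
      ν ((l : K) • (m : W ≃ₗ[K] W) y) + τ ((l : K) ^ 2 * c) = (l' : K) ^ 2 * (ν y + τ c) := by
    intro m m' l l' h y c
    have h3 : β (π (lG hB m l * qG hB y c * (lG hB m l)⁻¹)) =
        π (lG hB m' l' * qG hB (s y) (ν y + τ c) * (lG hB m' l')⁻¹) := by
      rw [map_mul, map_mul, map_inv, map_mul, map_mul, map_inv, h, e1, map_mul, map_mul, map_inv]
    rw [lG_qG, lG_qG, e1] at h3
    exact hinj h3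
  -- the torus
  have htor : ∀ l : Kˣ, ∃ (m' : SpG B) (l' : Kˣ), β (π (lG hB 1 l)) = π (lG hB m' l') :=
    fun l => levi_img hB p hker hπ ht1 ht2 1 l
  choose M L hML using htor
  have hL : ∀ (l : Kˣ) (c : K), τ ((l : K) ^ 2 * c) = (L l : K) ^ 2 * τ c := by
    intro l c
    have h3 := (hrel (hML l) 0 c).2
    rw [map_zero, smul_zero, hν0, zero_add, zero_add] at h3
    exact h3
  have hτmul : ∀ x c, τ (x * c) = κ⁻¹ * τ x * τ c := by
    intro x c
    by_cases hx : x = 0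
    · rw [hx, zero_mul, hτ0, mul_zero, zero_mul]
    obtain ⟨l, hl⟩ := exists_root h2 x
    have hl0 : l ≠ 0 := by
      rintro rfl
      rw [zero_pow two_ne_zero] at hl
      exact hx hl.symm
    have h3 := hL (Units.mk0 l hl0) c
    have h4 := hL (Units.mk0 l hl0) 1
    rw [Units.val_mk0, hl] at h3 h4
    rw [mul_one, ← hκ] at h4
    rw [h3, h4]
    field_simp
  let σ' : K →+* K :=
    { toFun := fun c => κ⁻¹ * τ c
      map_one' := by rw [← hκ, inv_mul_cancel₀ hκ0]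
      map_mul' := by
        intro c d
        rw [hτmul]
        ring
      map_zero' := by rw [hτ0, mul_zero]
      map_add' := by
        intro c d
        rw [hτadd]
        ring }
  have hσinj : Function.Injective σ' := σ'.injective
  let σ : K ≃+* K := RingEquiv.ofBijective σ' (Finite.injective_iff_bijective.mp hσinj)
  have hσ : ∀ c, σ c = κ⁻¹ * τ c := fun c => rfl
  have hτσ : ∀ c, τ c = κ * σ c := by
    intro c
    rw [hσ, mul_inv_cancel_left₀ hκ0]
  have hLσ : ∀ l : Kˣ, (L l : K) = σ l := by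
    intro l
    apply sq_inj h2
    have h3 := hL l 1
    rw [mul_one, ← hκ, hτσ, map_pow, mul_comm] at h3
    exact (mul_right_cancel₀ hκ0 h3).symm
  have hM : ∀ l : Kˣ, M l = 1 := by
    intro l
    apply center_triv h2 hB
    rw [mem_center_iff]
    intro m₁
    have hinv : ∀ v : K × W × K, (∀ x, β x ∈ XT π hV v ↔ x ∈ XT π hV v) →
        ∀ x, β⁻¹ x ∈ XT π hV v ↔ x ∈ XT π hV v := by
      intro v hv x
      rw [← hv, MulAut.apply_inv_self]
    obtain ⟨m₀, l₀, h3⟩ := levi_img hB p hker hπ (hinv _ ht1) (hinv _ ht2) m₁ 1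
    have h4 : β (π (lG hB m₀ l₀)) = π (lG hB m₁ 1) := by rw [← h3, MulAut.apply_inv_self]
    have h5 : β (π (lG hB m₀ l₀ * lG hB 1 l)) = β (π (lG hB 1 l * lG hB m₀ l₀)) := by
      rw [lG_mul, lG_mul, mul_one, one_mul, mul_comm l₀]
    rw [map_mul, map_mul, map_mul, map_mul, h4, hML, ← map_mul, ← map_mul, lG_mul, lG_mul] at h5
    exact lG_inj hB (hi h5)
  have hsemi : ∀ (c : K) (y : W), s (c • y) = σ c • s y := by
    intro c y
    by_cases hc : c = 0
    · rw [hc, zero_smul, hs0, map_zero, zero_smul]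
    have h3 := (hrel (hML (Units.mk0 c hc)) y 0).1
    rw [hLσ, hM] at h3
    exact h3
  -- the quadratic part
  have hν : ∀ y, ν y = 0 := by
    intro y
    by_cases hy : y = 0
    · rw [hy, hν0]
    obtain ⟨l, hl0, hl1⟩ : ∃ l : K, l ≠ 0 ∧ l ≠ 1 := by
      classical
      haveI := Fintype.ofFinite K
      by_contra hcon
      push Not at hcon
      have h3 : (Finset.univ : Finset K) ⊆ {0, 1} := by
        intro x _
        rw [Finset.mem_insert, Finset.mem_singleton]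
        by_cases hx : x = 0
        · exact Or.inl hx
        · exact Or.inr (hcon x hx)
      have h4 := (Finset.card_le_card h3).trans Finset.card_le_two
      rw [Finset.card_univ, ← Nat.card_eq_fintype_card] at h4
      omega
    obtain ⟨m, hm, hmy⟩ := TG_trans hB hK hy (smul_ne_zero hl0 hy)
    obtain ⟨m', l', h3⟩ := levi_img hB p hker hπ ht1 ht2 ⟨m, TG_le hB hm⟩ 1
    have h4 := (hrel h3 0 1).2
    rw [map_zero, smul_zero, hν0, zero_add, zero_add, Units.val_one, one_pow, one_mul, ← hκ] at h4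
    have h5 : (l' : K) ^ 2 = 1 := mul_right_cancel₀ hκ0 (by rw [← h4, one_mul])
    have h6 := (hrel h3 y 0).2
    rw [h5, Units.val_one, one_smul, mul_zero, hτ0, add_zero, add_zero, one_mul] at h6
    have h7 := (hrel (hML (Units.mk0 l hl0)) y 0).2
    rw [hLσ, mul_zero, hτ0, add_zero, add_zero, Units.val_mk0] at h7
    have h8 : ν (l • y) = σ l ^ 2 * ν y := h7
    have h9 : ν (l • y) = ν y := by rw [← h6, ← hmy]
    rw [h9] at h8
    by_contra h10
    have h11 : σ l ^ 2 = 1 := mul_right_cancel₀ h10 (by rw [← h8, one_mul])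
    apply hl1
    apply σ.injective
    rw [one_of_sq h2 h11, map_one]
  have hform : ∀ y y', τ (B y y') = B (s y) (s y') := by
    intro y y'
    have h3 := (e2 y' y 0 0).2
    rw [hν, hν, hν, hτ0, add_zero, add_zero, zero_add, zero_sub, hτneg, zero_sub] at h3
    exact neg_injective h3
  refine ⟨S, σ, κ, hκ0, ?_, ?_, ?_⟩
  · intro c y
    rw [hS, hS]
    exact hsemi c y
  · intro y y'
    rw [hS, hS, ← hform, hτσ]
  · intro y c
    rw [e1, hτσ, hS, hν, zero_add]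

end Maps

end Vale.Agent.P180.R2.H589.Sx
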