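import Vale.Agent.P180.R2.H589.Sx.Au4
import Vale.Agent.P180.R2.H589.Sp.Au5

/-!
P180: automorphisms of `Sp(V)`, characteristic two: the automorphisms which permute the
transvection groups; they form a subgroup of index at most two if `dim V = 4`.
-/

set_option linter.all false

namespace Vale.Agent.P180.R2.H589.Sx

open Subgroup Module
open LinearMap (BilinForm)
open Vale.Agent.P180.R2.H589.Sch
open Vale.Agent.P180.R2.H589.Sp
open scoped Pointwise

section TP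

variable {K V : Type*} [Field K] [AddCommGroup V] [Module K V] {B : BilinForm K V}
  {T : Type*} [Group T]

/-- `α` permutes the transvection groups -/
def TP (π : SpG B →* T) (hB : Sy B) (α : MulAut T) : Prop :=
  ∃ v w : V, v ≠ 0 ∧ w ≠ 0 ∧ ∀ x, α x ∈ XT π hB w ↔ x ∈ XT π hB v

variable {π : SpG B →* T} {hB : Sy B} [Finite K] (hK : 2 < Nat.card K)
  (hπ : Function.Surjective π)

include hK hπ

theorem TP.all {α : MulAut T} (h : TP π hB α) {v : V} (hv : v ≠ 0) :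
    ∃ w : V, w ≠ 0 ∧ ∀ x, α x ∈ XT π hB w ↔ x ∈ XT π hB v := by
  obtain ⟨v₀, w₀, hv₀, hw₀, h1⟩ := h
  obtain ⟨g, hg, hgv⟩ := TG_trans hB hK hv₀ hv
  obtain ⟨a, ha⟩ : ∃ a : SpG B, a = ⟨g, TG_le hB hg⟩ := ⟨_, rfl⟩
  have hav : (a : V ≃ₗ[K] V) v₀ = v := by rw [ha]; exact hgv
  obtain ⟨b, hb⟩ := hπ (α (π a))
  refine ⟨(b : V ≃ₗ[K] V) w₀, fun h => hw₀ (LinearEquiv.map_eq_zero_iff _ |>.mp h), fun x => ?_⟩
  rw [← XT_conj_iff', hb, conj_iff_of_mem h1, XT_conj_iff', hav]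

theorem TP.mul {α β : MulAut T} (hα : TP π hB α) (hβ : TP π hB β) : TP π hB (α * β) := by
  obtain ⟨v, w, hv, hw, h1⟩ := hβ
  obtain ⟨w', hw', h2⟩ := TP.all hK hπ hα hw
  exact ⟨v, w', hv, hw', fun x => by rw [MulAut.mul_apply, h2, h1]⟩

omit hK hπ [Finite K] in
theorem TP.inv {α : MulAut T} (hα : TP π hB α) : TP π hB α⁻¹ := by
  obtain ⟨v, w, hv, hw, h1⟩ := hα
  exact ⟨w, v, hw, hv, fun x => by rw [← h1, MulAut.apply_inv_self]⟩

omit hK in
omit [Finite K] in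
theorem TP.conj (hV : ∃ v : V, v ≠ 0) (t : T) : TP π hB (MulAut.conj t) := by
  obtain ⟨v, hv⟩ := hV
  obtain ⟨g, rfl⟩ := hπ t
  refine ⟨v, (g : V ≃ₗ[K] V) v, hv, fun h => hv (LinearEquiv.map_eq_zero_iff _ |>.mp h),
    fun x => ?_⟩
  rw [MulAut.conj_apply]
  exact XT_conj_iff π hB g v

/-- the subgroup of the automorphisms which permute the transvection groups -/
def TPG (π : SpG B →* T) (hB : Sy B) (hK : 2 < Nat.card K) (hπ : Function.Surjective π)
    (hV : ∃ v : V, v ≠ 0) : Subgroup (MulAut T) where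
  carrier := {α | TP π hB α}
  one_mem' := by
    obtain ⟨v, hv⟩ := hV
    exact ⟨v, v, hv, hv, fun x => Iff.rfl⟩
  mul_mem' := fun h1 h2 => TP.mul hK hπ h1 h2
  inv_mem' := fun h1 => TP.inv h1

omit hK hπ in
theorem mem_TPG (hK : 2 < Nat.card K) (hπ : Function.Surjective π) (hV : ∃ v : V, v ≠ 0)
    {α : MulAut T} : α ∈ TPG π hB hK hπ hV ↔ TP π hB α := Iff.rfl

end TP

section Hyp

variable {K W : Type*} [Field K] [AddCommGroup W] [Module K W] {B : BilinForm K W}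
  (hB : Sy B) {T : Type*} [Group T] {π : SpG (hyp B) →* T}
  (p : ℕ) [hp : Fact p.Prime] [CharP K p] [Finite K] [Finite W] (h2 : (2 : K) = 0)
  (hK : 2 < Nat.card K) (hker : π.ker = center (SpG (hyp B))) (hπ : Function.Surjective π)

include hK hπ in
omit hp [CharP K p] [Finite W] in
theorem TP.exists_norm {α : MulAut T} (h : TP π (hyp_sy hB) α) :
    ∃ t : T, ∀ x, (MulAut.conj t * α) x ∈ XT π (hyp_sy hB) (oo K W) ↔
      x ∈ XT π (hyp_sy hB) (oo K W) := by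
  have hV := hyp_sy hB
  obtain ⟨w, hw, h1⟩ := TP.all hK hπ h (oo_ne (K := K) (W := W))
  obtain ⟨g, hg, hgw⟩ := TG_trans hV hK (oo_ne (K := K) (W := W)) hw
  obtain ⟨a, ha⟩ : ∃ a : SpG (hyp B), a = ⟨g, TG_le hV hg⟩ := ⟨_, rfl⟩
  have hav : (a : (K × W × K) ≃ₗ[K] (K × W × K)) (oo K W) = w := by rw [ha]; exact hgw
  refine ⟨(π a)⁻¹, fun x => ?_⟩
  rw [MulAut.mul_apply, MulAut.conj_apply, inv_inv, XT_conj_iff', hav, h1]

/-- the other root group -/
def XX (π : SpG (hyp B) →* T) (hB : Sy B) (y : W) : Subgroup T where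
  carrier := {t | ∃ k : K, t = π (qG hB (k • y) 0)}
  one_mem' := ⟨0, by rw [zero_smul, qG_zero, map_one]⟩
  mul_mem' := by
    rintro _ _ ⟨k, rfl⟩ ⟨l, rfl⟩
    refine ⟨k + l, ?_⟩
    rw [← map_mul, qG_mul, map_smul, map_smul, LinearMap.smul_apply, hB.alt, smul_zero, smul_zero,
      add_zero, sub_zero, add_smul]
  inv_mem' := by
    rintro _ ⟨k, rfl⟩
    exact ⟨-k, by rw [← map_inv, qG_inv, neg_smul, neg_zero]⟩

theorem mem_XX {y : W} {t : T} : t ∈ XX π hB y ↔ ∃ k : K, t = π (qG hB (k • y) 0) := Iff.rfl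

include hB in
omit [Finite K] [Finite W] hp [CharP K p] in
theorem exists_coord [Module.Finite K W] (hd : finrank K W = 2) {y₁ y : W} (hy₁ : y₁ ≠ 0)
    (h : B y y₁ = 0) : ∃ k : K, y = k • y₁ := by
  obtain ⟨y₂, h1⟩ := hB.exists_one hy₁
  have h3 := (splitE hB h1).finrank_eq
  rw [Module.finrank_prod, Module.finrank_prod, Module.finrank_self, hd] at h3
  have h4 : finrank K (WW B y₁ y₂) = 0 := by omega
  haveI : Subsingleton (WW B y₁ y₂) := Module.finrank_zero_iff.mp h4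
  have h5 : (⟨_, pr_mem hB h1 y⟩ : WW B y₁ y₂) = 0 := Subsingleton.elim _ _
  have h6 : y - B y y₂ • y₁ - B y₁ y • y₂ = 0 := congrArg Subtype.val h5
  refine ⟨B y y₂, ?_⟩
  rw [hB.neg y y₁, h, neg_zero, zero_smul, sub_zero] at h6
  exact sub_eq_zero.mp h6

include hp hker h2 hπ in
/-- a Sylow subgroup with small centre -/
theorem exists_sylow [Finite T] (hd : finrank K W = 2) :
    ∃ (S : Sylow p T) (y₁ : W), y₁ ≠ 0 ∧ RT hB π ≤ S ∧
      ∀ t ∈ centralizer (S : Set T) ⊓ S, ∃ (k c : K), t = π (qG hB (k • y₁) c) := by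
  haveI : Module.Finite K W := Module.Finite.of_finite
  have hV := hyp_sy hB
  have hi := pi_inj h2 hV hker
  obtain ⟨y₁, hy₁⟩ : ∃ y₁ : W, y₁ ≠ 0 := by
    by_contra hcon
    push Not at hcon
    have h3 : Subsingleton W := ⟨fun x y => by rw [hcon x, hcon y]⟩
    have h4 := Module.finrank_zero_of_subsingleton (R := K) (M := W)
    omega
  have htl : ∀ a : K, tG hV (0, y₁, 0) a = lG hB (tG hB y₁ a) 1 := fun a =>
    Subtype.ext (lv_tS hB y₁ a).symm
  have hoo : ∀ a : K, ((tG hV (0, y₁, 0) a : SpG (hyp B)) :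
      (K × W × K) ≃ₗ[K] (K × W × K)) (oo K W) = (1 : K) • oo K W := by
    intro a
    rw [htl, lG_oo, Units.val_one]
  have hP : IsPGroup p (XT π hV (0, y₁, 0)) := by
    rw [Bt.isPGroup_iff]
    rintro _ ⟨c, rfl⟩
    exact (tG_pel (p := p) hV _ c).map π
  have hN : XT π hV (0, y₁, 0) ≤ normalizer (RT hB π : Set T) := by
    rintro t ⟨a, rfl⟩
    rw [mem_normalizer_iff]
    intro x
    refine ⟨fun hx => RT_conj hB (hoo a) hx, fun hx => ?_⟩
    have h3 := RT_conj hB (hoo (-a)) hx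
    rw [← tG_inv, map_inv] at h3
    have h4 : (π (tG hV (0, y₁, 0) a))⁻¹ * (π (tG hV (0, y₁, 0) a) * x *
        (π (tG hV (0, y₁, 0) a))⁻¹) * (π (tG hV (0, y₁, 0) a))⁻¹⁻¹ = x := by group
    rwa [h4] at h3
  obtain ⟨S, hS⟩ := (hP.to_sup_of_normal_right' (isPGroup_RT hB π p) hN).exists_le_sylow
  have hS1 : RT hB π ≤ S := le_sup_right.trans hS
  have hS2 : XT π hV (0, y₁, 0) ≤ S := le_sup_left.trans hS
  refine ⟨S, y₁, hy₁, hS1, ?_⟩
  rintro t ⟨h1, -⟩
  obtain ⟨g, rfl⟩ := hπ t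
  obtain ⟨y, c, h5⟩ := cent_RT hB h2 hker (g := g) fun s hs =>
    (mem_centralizer_iff.mp h1 s (hS1 hs)).symm
  have h6 := mem_centralizer_iff.mp h1 _ (hS2 (tG_mem_XT π hV (0, y₁, 0) 1))
  rw [h5, ← map_mul, ← map_mul] at h6
  have h7 := mul_inv_eq_iff_eq_mul.mpr (hi h6)
  rw [htl, lG_qG, Units.val_one, one_smul] at h7
  have h8 : tS hB y₁ 1 y = y := (qG_inj hB h7).1
  rw [tS_apply, one_mul] at h8
  have h9 : B y y₁ = 0 := (smul_eq_zero.mp (add_eq_left.mp h8)).resolve_right hy₁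
  obtain ⟨k, rfl⟩ := exists_coord hB hd hy₁ h9
  exact ⟨k, c, h5⟩

include hp hker h2 hπ in
/-- Automorphisms which stabilise the Sylow subgroup. -/
theorem img_or [Finite T] (hd : finrank K W = 2) {S : Sylow p T} {y₁ : W} (hy₁ : y₁ ≠ 0)
    (hS : RT hB π ≤ S)
    (hZ : ∀ t ∈ centralizer (S : Set T) ⊓ S, ∃ (k c : K), t = π (qG hB (k • y₁) c))
    {β : MulAut T} (hβ : ∀ x, β x ∈ S ↔ x ∈ S) :
    (∀ x, β x ∈ XT π (hyp_sy hB) (oo K W) ↔ x ∈ XT π (hyp_sy hB) (oo K W)) ∨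
    (∀ x, β x ∈ XX π hB y₁ ↔ x ∈ XT π (hyp_sy hB) (oo K W)) := by
  haveI : Module.Finite K W := Module.Finite.of_finite
  have hV := hyp_sy hB
  have hi := pi_inj h2 hV hker
  have hsub : (((XT π hV (oo K W)).map β.toMonoidHom : Subgroup T) : Set T) ⊆
      (XT π hV (oo K W) : Set T) ∪ (XX π hB y₁ : Set T) := by
    rintro _ ⟨_, ⟨c, rfl⟩, rfl⟩
    change β (π (tG hV (oo K W) c)) ∈ _
    by_cases hc : c = 0
    · rw [hc, tG_zero, map_one, map_one]
      exact Or.inl (Subgroup.one_mem _)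
    have h1 : π (tG hV (oo K W) c) ∈ centralizer (S : Set T) ⊓ S := by
      refine ⟨mem_centralizer_iff.mpr ?_, hS (XT_oo_le hB π (tG_mem_XT π _ _ _))⟩
      intro s hs
      obtain ⟨g, rfl⟩ := hπ s
      have h3 := fix_oo hB p h2 hker S.isPGroup' hS hs
      rw [← map_mul, ← map_mul]
      congr 1
      rw [← mul_inv_eq_iff_eq_mul, tG_conj, h3]
    have h3 : β (π (tG hV (oo K W) c)) ∈ centralizer (S : Set T) ⊓ S := by
      refine ⟨mem_centralizer_iff.mpr fun s hs => ?_, (hβ _).mpr h1.2⟩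
      obtain ⟨s, rfl⟩ := β.surjective s
      rw [← map_mul, ← map_mul, mem_centralizer_iff.mp h1.1 s ((hβ s).mp hs)]
    obtain ⟨k, d, h4⟩ := hZ _ h3
    have hsq : ∀ u : T, u ^ 2 ≠ β (π (tG hV (oo K W) c)) := by
      intro u hu
      obtain ⟨u, rfl⟩ := β.surjective u
      rw [← map_pow] at hu
      obtain ⟨g, rfl⟩ := hπ u
      have h5 := β.injective hu
      rw [← map_pow] at h5
      exact not_sq h2 hV oo_ne hc g (hi h5)
    by_cases hk : k = 0
    · left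
      rw [h4, hk, zero_smul, qG_tG]
      exact tG_mem_XT π _ _ _
    by_cases hd0 : d = 0
    · right
      rw [h4, hd0]
      exact ⟨k, rfl⟩
    exfalso
    obtain ⟨u, hu⟩ : ∃ u : SpG (hyp B), u ^ 2 = qG hB (k • y₁) d := by
      obtain ⟨z, hz⟩ := hB.exists_one (smul_ne_zero hk hy₁)
      have h2W : ∀ x : W, x + x = 0 := by
        intro x
        rw [← two_smul K, h2, zero_smul]
      obtain ⟨y, hy⟩ : ∃ y, y = k • y₁ := ⟨_, rfl⟩
      rw [← hy] at hz ⊢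
      obtain ⟨w, hw⟩ : ∃ w, w = (-d) • z := ⟨_, rfl⟩
      have hyw : B y w = -d := by rw [hw, map_smul, hz, smul_eq_mul, mul_one]
      have hwy : B w y = d := by rw [hB.neg y w, hyw, neg_neg]
      have hmm : tG hB y d⁻¹ * tG hB y d⁻¹ = 1 := by
        rw [tG_add, ← two_mul, h2, zero_mul, tG_zero]
      have hmw : ((tG hB y d⁻¹ : SpG B) : W ≃ₗ[K] W) w = w + y := by
        change tS hB y d⁻¹ w = w + y
        rw [tS_apply, hwy, inv_mul_cancel₀ hd0, one_smul]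
      refine ⟨qG hB w 0 * lG hB (tG hB y d⁻¹) 1, ?_⟩
      rw [sq_form hB hmm, hmw, ← add_assoc, h2W, zero_add]
      congr 1
      rw [map_add, LinearMap.add_apply, hB.alt, hyw, zero_add, neg_neg]
    exact hsq (π u) (by rw [← map_pow, hu, h4])
  -- cardinalities
  have hc1 : Nat.card K ≤ Nat.card (XT π hV (oo K W)) := by
    refine Nat.card_le_card_of_injective
      (fun c : K => (⟨π (tG hV (oo K W) c), tG_mem_XT π _ _ _⟩ : XT π hV (oo K W))) ?_
    intro c d h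
    have h3 := hi (congrArg Subtype.val h)
    rw [tG_qG hB, tG_qG hB] at h3
    exact neg_injective (qG_inj hB h3).2
  have hc2 : Nat.card (XX π hB y₁) ≤ Nat.card K := by
    refine Nat.card_le_card_of_surjective
      (fun k : K => (⟨π (qG hB (k • y₁) 0), ⟨k, rfl⟩⟩ : XX π hB y₁)) ?_
    rintro ⟨_, k, rfl⟩
    exact ⟨k, rfl⟩
  have hc3 : Nat.card ((XT π hV (oo K W)).map β.toMonoidHom) = Nat.card (XT π hV (oo K W)) :=
    Nat.card_congr ((XT π hV (oo K W)).equivMapOfInjective _ β.injective).symm.toEquiv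
  have hmem : ∀ {Y : Subgroup T}, (XT π hV (oo K W)).map β.toMonoidHom = Y →
      ∀ x, β x ∈ Y ↔ x ∈ XT π hV (oo K W) := by
    rintro _ rfl x
    constructor
    · rintro ⟨x', hx', h⟩
      rwa [← β.injective h]
    · exact fun hx => ⟨x, hx, rfl⟩
  rcases SubgroupClass.subset_union.mp hsub with h | h
  · exact Or.inl (hmem (eq_of_le_of_card_ge h hc3.ge))
  · exact Or.inr (hmem (eq_of_le_of_card_ge h (hc2.trans (hc1.trans hc3.ge))))

include hp hker h2 hπ hK in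
/-- **Index two.** -/
theorem index_two_hyp (hd : finrank K W = 2) {α β : MulAut T} (hα : ¬ TP π (hyp_sy hB) α)
    (hβ : ¬ TP π (hyp_sy hB) β) : TP π (hyp_sy hB) (α⁻¹ * β) := by
  have hV := hyp_sy hB
  haveI : Finite ((K × W × K) ≃ₗ[K] (K × W × K)) := finite_gl
  haveI : Finite T := Finite.of_surjective π hπ
  have hne : ∃ v : K × W × K, v ≠ 0 := ⟨_, oo_ne⟩
  obtain ⟨S, y₁, hy₁, hS, hZ⟩ := exists_sylow hB p h2 hker hπ hd
  have key : ∀ {α : MulAut T}, ¬ TP π (hyp_sy hB) α → ∃ t : T,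
      ∀ x, (MulAut.conj t * α) x ∈ XX π hB y₁ ↔ x ∈ XT π hV (oo K W) := by
    intro α hα
    obtain ⟨t, ht⟩ := MulAction.exists_smul_eq T (α • S) S
    rw [Sylow.smul_def, smul_smul] at ht
    have h3 : ∀ x, (MulAut.conj t * α) x ∈ S ↔ x ∈ S := by
      intro x
      have h4 : (MulAut.conj t * α) • x ∈ ((MulAut.conj t * α) • (S : Subgroup T)) ↔
        x ∈ (S : Subgroup T) := smul_mem_pointwise_smul_iff
      rw [← Sylow.pointwise_smul_def, ht] at h4
      exact h4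
    refine ⟨t, (img_or hB p h2 hker hπ hd hy₁ hS hZ h3).resolve_left fun h4 => hα ?_⟩
    have h5 : TP π hV (MulAut.conj t * α) := ⟨_, _, oo_ne, oo_ne, h4⟩
    have h6 := TP.mul hK hπ (TP.conj (hB := hV) hπ hne t⁻¹) h5
    rwa [← mul_assoc, ← map_mul, inv_mul_cancel, map_one, one_mul] at h6
  obtain ⟨t, ht⟩ := key hα
  obtain ⟨u, hu⟩ := key hβ
  have h1 : TP π hV ((MulAut.conj t * α)⁻¹ * (MulAut.conj u * β)) := by
    obtain ⟨a, ha⟩ : ∃ a, a = MulAut.conj t * α := ⟨_, rfl⟩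
    rw [← ha] at ht ⊢
    refine ⟨_, _, oo_ne, oo_ne, fun x => ?_⟩
    rw [← ht, ← hu x, MulAut.mul_apply, MulAut.apply_inv_self]
  -- the inner part
  have h3 : α⁻¹ * β = MulAut.conj (α⁻¹ (u⁻¹ * t)) * ((MulAut.conj t * α)⁻¹ *
      (MulAut.conj u * β)) := by
    ext x
    rw [mul_inv_rev, MulAut.mul_apply, MulAut.mul_apply, MulAut.mul_apply, MulAut.mul_apply,
      MulAut.mul_apply, MulAut.conj_apply, MulAut.conj_apply, ← map_inv MulAut.conj,
      MulAut.conj_apply, map_mul, map_mul, map_mul, map_mul, map_mul, map_inv, map_inv, map_inv,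
      map_inv]
    group
  rw [h3]
  exact TP.mul hK hπ (TP.conj (hB := hV) hπ hne _) h1

end Hyp

end Vale.Agent.P180.R2.H589.Sx
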